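import Vale.Agent.P097.H109.TDc
import Vale.Agent.P097.H509.St.Defs
import Vale.Agent.P097.H560.Gen

/-!
# P097 / block (T), straight line, row ST-10 (c): non constancy at the pick

The oscillation at the pick is seen on the compact `Pc Xp op 0 0 1` of the blown up base quadrant,
and it passes to one fixed point of the wide cone for the derivatives.
-/

set_option linter.all false

open Complex Metric Filter Topology Set
open scoped ComplexConjugate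

namespace Vale.Agent.P097.H109.NCst

open Vale.Agent.P097.H509.St Vale.Agent.P097.H845.St Vale.Agent.P097.H226.W
open Vale.Agent.P097.H190.Ult Vale.Agent.P097.H560

/-! ### the unit piece -/

theorem tr_smul_mem {X om y x r : ℝ} (hr : 0 < r) {v : ℂ × ℂ} :
    tr y x ((r : ℂ) • v) ∈ Pc X om y x r ↔ v ∈ Pc X om 0 0 1 := by
  have e1 : (tr y x ((r : ℂ) • v)).1.re = y + r * v.1.re := by simp [tr]
  have e2 : (tr y x ((r : ℂ) • v)).1.im = r * v.1.im := by simp [tr]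
  have e3 : (tr y x ((r : ℂ) • v)).2.re = x + r * v.2.re := by simp [tr]
  have e4 : (tr y x ((r : ℂ) • v)).2.im = r * v.2.im := by simp [tr]
  simp only [Pc, mem_setOf_eq, e1, e2, e3, e4, add_sub_cancel_left, sub_zero, mul_one, abs_mul,
    abs_of_pos hr]
  constructor
  · rintro ⟨h1, h2, h3, h4, h5, h6⟩
    exact ⟨by nlinarith, by nlinarith, by nlinarith, by nlinarith, by nlinarith, by nlinarith⟩
  · rintro ⟨h1, h2, h3, h4, h5, h6⟩
    exact ⟨by nlinarith, by nlinarith, by nlinarith, by nlinarith, by nlinarith, by nlinarith⟩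

theorem pc_scale {X om y x r : ℝ} (hr : 0 < r) {z : ℂ × ℂ} :
    z ∈ Pc X om y x r ↔ ∃ v ∈ Pc X om 0 0 1, z = tr y x ((r : ℂ) • v) := by
  constructor
  · intro hz
    have e : z = tr y x ((r : ℂ) • ((r : ℂ)⁻¹ • (z - ((y : ℂ), (x : ℂ))))) := by
      have hr' : (r : ℂ) ≠ 0 := by exact_mod_cast hr.ne'
      rw [smul_smul, mul_inv_cancel₀ hr', one_smul]
      ext <;> simp [tr]
    refine ⟨_, ?_, e⟩
    rw [← tr_smul_mem hr (y := y) (x := x), ← e]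
    exact hz
  · rintro ⟨v, hv, rfl⟩
    exact (tr_smul_mem hr).2 hv

theorem isCompact_P1 (X om : ℝ) : IsCompact (Pc X om 0 0 1) := by
  have hc : IsClosed (Pc X om 0 0 1) := by
    unfold Pc
    simp only [setOf_and]
    refine IsClosed.inter ?_ (IsClosed.inter ?_ (IsClosed.inter ?_ (IsClosed.inter ?_
      (IsClosed.inter ?_ ?_))))
    · exact isClosed_le (by fun_prop) (by fun_prop)
    · exact isClosed_le (by fun_prop) (by fun_prop)
    · exact isClosed_le (by fun_prop) (by fun_prop)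
    · exact isClosed_le (by fun_prop) (by fun_prop)
    · exact isClosed_le (by fun_prop) (by fun_prop)
    · exact isClosed_le (by fun_prop) (by fun_prop)
  refine IsCompact.of_isClosed_subset (isCompact_closedBall (0 : ℂ × ℂ) (2 * (|X| + |om|))) hc ?_
  rintro z ⟨h1, h2, h3, h4, h5, h6⟩
  rw [mem_closedBall, dist_zero_right, Prod.norm_def, max_le_iff]
  have hX := le_abs_self X
  have hom := neg_abs_le om
  have ho := abs_nonneg om
  have hXX := abs_nonneg X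
  simp only [sub_zero, mul_one] at *
  constructor
  · refine (Complex.norm_le_abs_re_add_abs_im z.1).trans ?_
    have : |z.1.im| ≤ |X| + |om| := by
      rw [abs_le]; constructor <;> linarith
    linarith
  · refine (Complex.norm_le_abs_re_add_abs_im z.2).trans ?_
    have : |z.2.im| ≤ |X| + |om| := by
      rw [abs_le]; constructor <;> linarith
    linarith

theorem P1_sub_Qu {X om : ℝ} (hom : 0 < om) : Pc X om 0 0 1 ⊆ Qu := by
  rintro z ⟨h1, h2, h3, h4, h5, h6⟩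
  simp only [mul_one] at *
  exact ⟨by linarith, by linarith⟩

theorem P1_sub_Wd {X om δ : ℝ} (hom : 0 < om) (hδ : 0 < δ) : Pc X om 0 0 1 ⊆ Wd δ := by
  intro z hz
  obtain ⟨h1, h2⟩ := P1_sub_Qu hom hz
  exact ⟨h2, h1.trans (mul_pos hδ h2)⟩

theorem Sx_tr (Ψ : ℂ → ℂ) (x v S y₀ x₀ r : ℝ) (z : ℂ × ℂ) :
    Sx Ψ x v S (tr y₀ x₀ ((r : ℂ) • z)) = Sx Ψ (x + S * y₀) (v + S * x₀) (S * r) z := by
  simp only [Sx, tr, Prod.smul_fst, Prod.smul_snd, smul_eq_mul]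
  push_cast
  ext
  · show (x : ℂ) + S * (y₀ + r * z.1) + Ψ (v + S * (x₀ + r * z.2)) =
      x + S * y₀ + S * r * z.1 + Ψ (v + S * x₀ + S * r * z.2)
    have e : (v : ℂ) + S * (x₀ + r * z.2) = v + S * x₀ + S * r * z.2 := by ring
    rw [e]; ring
  · show (v : ℂ) + S * (x₀ + r * z.2) = v + S * x₀ + S * r * z.2
    ring

/-! ### the pick -/

/-- the size of a window is attained up to a factor `2` -/
theorem osc_pair {L : ℂ × ℂ → ℂ × ℂ} {X om y x r E : ℝ} (hr : 0 < r) (hE : 0 < E)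
    (h : E = Es L X om y x r) : ∃ v₁ ∈ Pc X om 0 0 1, ∃ v₂ ∈ Pc X om 0 0 1,
      1 / 2 * E ≤ ‖(L (tr y x ((r : ℂ) • v₁))).1 - (L (tr y x ((r : ℂ) • v₂))).1‖ +
        ‖(L (tr y x ((r : ℂ) • v₁))).2 - (L (tr y x ((r : ℂ) • v₂))).2‖ := by
  by_contra hcon
  push Not at hcon
  have h1 : Metric.diam (L '' Pc X om y x r) ≤ 1 / 2 * E := by
    refine Metric.diam_le_of_forall_dist_le (by positivity) ?_
    rintro _ ⟨z₁, hz₁, rfl⟩ _ ⟨z₂, hz₂, rfl⟩
    obtain ⟨v₁, hv₁, rfl⟩ := (pc_scale hr).1 hz₁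
    obtain ⟨v₂, hv₂, rfl⟩ := (pc_scale hr).1 hz₂
    have h2 := hcon v₁ hv₁ v₂ hv₂
    rw [dist_eq_norm, Prod.norm_def]
    refine max_le ?_ ?_
    · have := norm_nonneg ((L (tr y x ((r : ℂ) • v₁))).2 - (L (tr y x ((r : ℂ) • v₂))).2)
      rw [Prod.fst_sub]; linarith
    · have := norm_nonneg ((L (tr y x ((r : ℂ) • v₁))).1 - (L (tr y x ((r : ℂ) • v₂))).1)
      rw [Prod.snd_sub]; linarith
  have h3 : E ≤ Metric.diam (L '' Pc X om y x r) := by
    rw [h]; exact min_le_right _ _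
  linarith

/-- **non constancy at the pick** -/
theorem nc_pick {b : ℝ} {F : ℂ → ℂ} {al p th : ℂ × ℂ → ℂ} {A B : Set ℝ}
    {Xp op X om e V C₀ η κ y₀ x₀ r E₀ : ℝ}
    (h : Pick b F al p th A B Xp op X om e V C₀ η κ y₀ x₀ r E₀) :
    ∃ v₁ ∈ Pc Xp op 0 0 1, ∃ v₂ ∈ Pc Xp op 0 0 1,
      1 / 2 * E₀ ≤ ‖al (tr y₀ x₀ ((r : ℂ) • v₁)) - al (tr y₀ x₀ ((r : ℂ) • v₂))‖ +
        ‖p (tr y₀ x₀ ((r : ℂ) • v₁)) - p (tr y₀ x₀ ((r : ℂ) • v₂))‖ :=
  osc_pair h.r0 h.E0 h.eq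

/-- the same in the coordinates `Sx` of the world: the line is `al ∘ Sx Ψ x v S` -/
theorem nc_pick_Sx {b : ℝ} {F : ℂ → ℂ} {Ψ : ℂ → ℂ} {x v S : ℝ} {al p th : ℂ × ℂ → ℂ} {A B : Set ℝ}
    {Xp op X om e V C₀ η κ y₀ x₀ r E₀ : ℝ}
    (h : Pick b F (al ∘ Sx Ψ x v S) (p ∘ Sx Ψ x v S) th A B Xp op X om e V C₀ η κ y₀ x₀ r E₀) :
    ∃ v₁ ∈ Pc Xp op 0 0 1, ∃ v₂ ∈ Pc Xp op 0 0 1,
      1 / 2 * E₀ ≤ ‖al (Sx Ψ (x + S * y₀) (v + S * x₀) (S * r) v₁) -
          al (Sx Ψ (x + S * y₀) (v + S * x₀) (S * r) v₂)‖ +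
        ‖p (Sx Ψ (x + S * y₀) (v + S * x₀) (S * r) v₁) -
          p (Sx Ψ (x + S * y₀) (v + S * x₀) (S * r) v₂)‖ := by
  obtain ⟨v₁, h1, v₂, h2, h3⟩ := nc_pick h
  refine ⟨v₁, h1, v₂, h2, ?_⟩
  simpa only [Function.comp_apply, Sx_tr] using h3

/-! ### passage to one fixed point -/

section
variable {ι : Type*} {V : Type*} [NormedAddCommGroup V] [NormedSpace ℂ V]

/-- the derivatives of locally uniformly convergent holomorphic functions: lower bound at a fixed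
point -/
theorem fderiv_low {𝒰 : Ultrafilter ι} [ProperSpace V] {D : Set V} (hD : IsOpen D)
    {f : ι → V → ℂ} {g : V → ℂ} (hf : LocBdd (𝒰 : Filter ι) f D)
    (hfg : TendstoLocallyUniformlyOn f g (𝒰 : Filter ι) D) (hg : DifferentiableOn ℂ g D)
    {x : V} (hx : x ∈ D) (h0 : fderiv ℂ g x ≠ 0) :
    ∀ᶠ n in (𝒰 : Filter ι), ‖fderiv ℂ g x‖ / 2 ≤ ‖fderiv ℂ (f n) x‖ := by
  obtain ⟨r, hr, C, hC⟩ := hf x hx
  obtain ⟨r', hr', h1⟩ := Metric.nhds_basis_closedBall.mem_iff.1 (hD.mem_nhds hx)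
  set s := min r r' with hs
  have hs0 : 0 < s := lt_min hr hr'
  have hsD : closedBall x s ⊆ D := (closedBall_subset_closedBall (min_le_right _ _)).trans h1
  have hsb : ball x s ⊆ D := ball_subset_closedBall.trans hsD
  have hn0 : 0 < ‖fderiv ℂ g x‖ := norm_pos_iff.2 h0
  set c := ‖fderiv ℂ g x‖ / 2 with hc
  have hc0 : 0 < c := by positivity
  have hun : ∀ᶠ n in (𝒰 : Filter ι), ∀ y ∈ closedBall x (s / 2), ‖f n y - g y‖ ≤ c * s / 8 := by
    have h3 := (tendstoLocallyUniformlyOn_iff_forall_isCompact hD).1 hfg _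
      ((closedBall_subset_closedBall (by linarith)).trans hsD) (isCompact_closedBall x (s / 2))
    rw [Metric.tendstoUniformlyOn_iff] at h3
    filter_upwards [h3 (c * s / 8) (by positivity)] with n hn y hy
    have := hn y hy
    rw [dist_comm, dist_eq_norm] at this
    exact this.le
  filter_upwards [hun, hC] with n h4 h5
  have hfn : DifferentiableOn ℂ (f n) (ball x (s / 2)) :=
    h5.1.mono (ball_subset_ball ((half_le_self hs0.le).trans (min_le_left _ _)))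
  have hgn : DifferentiableOn ℂ g (ball x (s / 2)) :=
    hg.mono ((ball_subset_ball (half_le_self hs0.le)).trans hsb)
  have h7 : DifferentiableOn ℂ (fun y => f n y - g y) (ball x (s / 2)) := hfn.sub hgn
  have h8 : ∀ y ∈ ball x (s / 2), ‖f n y - g y‖ ≤ c * s / 8 := fun y hy =>
    h4 y (ball_subset_closedBall hy)
  have hx4 : x ∈ ball x (s / 2 / 4) := mem_ball_self (by positivity)
  have h10 : ‖fderiv ℂ (fun y => f n y - g y) x‖ ≤ c := by
    refine norm_fderiv_le_of_lip' ℂ hc0.le ?_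
    filter_upwards [isOpen_ball.mem_nhds hx4] with z hz
    have h11 := lip_of_bdd (show 0 < s / 2 by positivity) h7 h8 hx4 hz
    rw [dist_eq_norm, dist_eq_norm] at h11
    refine h11.trans (le_of_eq ?_)
    field_simp
    ring
  have hxs : x ∈ ball x (s / 2) := mem_ball_self (by positivity)
  have dfx : DifferentiableAt ℂ (f n) x := hfn.differentiableAt (isOpen_ball.mem_nhds hxs)
  have dgx : DifferentiableAt ℂ g x := hgn.differentiableAt (isOpen_ball.mem_nhds hxs)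
  have h12 : fderiv ℂ (fun y => f n y - g y) x = fderiv ℂ (f n) x - fderiv ℂ g x :=
    fderiv_fun_sub dfx dgx
  rw [h12] at h10
  have h13 := norm_sub_norm_le (fderiv ℂ g x) (fderiv ℂ (f n) x)
  rw [norm_sub_rev] at h13
  have h14 : ‖fderiv ℂ g x‖ = 2 * c := by rw [hc]; ring
  linarith

/-- **from the oscillation on a compact to the derivatives at one fixed point** -/
theorem nb_nc {𝒰 : Ultrafilter ι} [ProperSpace V] {D : Set V} (hD : IsOpen D)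
    (hDp : IsPreconnected D) {a p : ι → V → ℂ} {ca cp : ι → ℂ} {ε : ι → ℝ}
    (hε : ∀ᶠ n in (𝒰 : Filter ι), 0 < ε n)
    (hb : ∀ K ⊆ D, IsCompact K → ∃ C : ℝ, ∀ᶠ n in (𝒰 : Filter ι), ∀ z ∈ K,
      DifferentiableAt ℂ (a n) z ∧ DifferentiableAt ℂ (p n) z ∧
      ‖a n z - ca n‖ ≤ C * ε n ∧ ‖p n z - cp n‖ ≤ C * ε n)
    {X₀ : Set V} (hX₀ : IsCompact X₀) (hX₀D : X₀ ⊆ D) {c : ℝ} (hc : 0 < c)
    (hnc : ∀ᶠ n in (𝒰 : Filter ι), ∃ v₁ ∈ X₀, ∃ v₂ ∈ X₀,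
      c * ε n ≤ ‖a n v₁ - a n v₂‖ + ‖p n v₁ - p n v₂‖) :
    ∃ c' > 0, ∃ z₂ ∈ D, ∀ᶠ n in (𝒰 : Filter ι),
      c' * ε n ≤ ‖fderiv ℂ (a n) z₂‖ + ‖fderiv ℂ (p n) z₂‖ := by
  have la : LocBdd (𝒰 : Filter ι) (fun n z => (a n z - ca n) / (ε n : ℂ)) D :=
    TD.locBdd_norm hD hε fun K hK hKc => by
      obtain ⟨C, hC⟩ := hb K hK hKc
      exact ⟨C, hC.mono fun n hn z hz => ⟨(hn z hz).1, (hn z hz).2.2.1⟩⟩
  have lp : LocBdd (𝒰 : Filter ι) (fun n z => (p n z - cp n) / (ε n : ℂ)) D :=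
    TD.locBdd_norm hD hε fun K hK hKc => by
      obtain ⟨C, hC⟩ := hb K hK hKc
      exact ⟨C, hC.mono fun n hn z hz => ⟨(hn z hz).2.1, (hn z hz).2.2.2⟩⟩
  obtain ⟨A', dA, tA, cA⟩ := montel_full 𝒰 hD la
  obtain ⟨P', dP, tP, cP⟩ := montel_full 𝒰 hD lp
  -- moving points
  have hch : ∀ n, ∃ v : V × V, (∃ v₁ ∈ X₀, ∃ v₂ ∈ X₀,
      c * ε n ≤ ‖a n v₁ - a n v₂‖ + ‖p n v₁ - p n v₂‖) → v.1 ∈ X₀ ∧ v.2 ∈ X₀ ∧
      c * ε n ≤ ‖a n v.1 - a n v.2‖ + ‖p n v.1 - p n v.2‖ := by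
    intro n
    by_cases h : ∃ v₁ ∈ X₀, ∃ v₂ ∈ X₀, c * ε n ≤ ‖a n v₁ - a n v₂‖ + ‖p n v₁ - p n v₂‖
    · obtain ⟨v₁, h1, v₂, h2, h3⟩ := h
      exact ⟨(v₁, v₂), fun _ => ⟨h1, h2, h3⟩⟩
    · exact ⟨(0, 0), fun h' => absurd h' h⟩
  choose v hv using hch
  have hv' : ∀ᶠ n in (𝒰 : Filter ι), (v n).1 ∈ X₀ ∧ (v n).2 ∈ X₀ ∧
      c * ε n ≤ ‖a n (v n).1 - a n (v n).2‖ + ‖p n (v n).1 - p n (v n).2‖ :=
    hnc.mono fun n hn => hv n hn
  obtain ⟨x₁, hx₁, t1⟩ := hX₀.ultrafilter_le_nhds (𝒰.map fun n => (v n).1) (by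
    rw [le_principal_iff]; exact hv'.mono fun n hn => hn.1)
  obtain ⟨x₂, hx₂, t2⟩ := hX₀.ultrafilter_le_nhds (𝒰.map fun n => (v n).2) (by
    rw [le_principal_iff]; exact hv'.mono fun n hn => hn.2.1)
  have t1' : Tendsto (fun n => (v n).1) (𝒰 : Filter ι) (𝓝 x₁) := t1
  have t2' : Tendsto (fun n => (v n).2) (𝒰 : Filter ι) (𝓝 x₂) := t2
  have k1 := ((cA x₁ (hX₀D hx₁) _ t1').sub (cA x₂ (hX₀D hx₂) _ t2')).norm
  have k2 := ((cP x₁ (hX₀D hx₁) _ t1').sub (cP x₂ (hX₀D hx₂) _ t2')).norm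
  have k3 := k1.add k2
  have k4 : c ≤ ‖A' x₁ - A' x₂‖ + ‖P' x₁ - P' x₂‖ := by
    refine ge_of_tendsto k3 ?_
    filter_upwards [hv', hε] with n hn h0
    have e : ∀ (f : V → ℂ) (k : ℂ) (y z : V), ‖(f y - k) / (ε n : ℂ) - (f z - k) / (ε n : ℂ)‖ =
        ‖f y - f z‖ / ε n := by
      intro f k y z
      rw [← sub_div, sub_sub_sub_cancel_right, norm_div, Complex.norm_real,
        Real.norm_of_nonneg h0.le]
    rw [e, e, ← add_div, le_div_iff₀ h0]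
    exact hn.2.2
  -- one of the two limits is not constant
  have key : ∀ g : V → ℂ, DifferentiableOn ℂ g D → g x₁ ≠ g x₂ → ∃ z ∈ D, fderiv ℂ g z ≠ 0 := by
    intro g hg hne
    by_contra hcon
    push Not at hcon
    exact hne (hD.is_const_of_fderiv_eq_zero (𝕜 := ℂ) hDp hg (fun z hz => hcon z hz)
      (hX₀D hx₁) (hX₀D hx₂))
  have fin : ∀ (f : ι → V → ℂ) (cf : ι → ℂ) (z : V) (g : V → ℂ), 0 < ‖fderiv ℂ g z‖ →
      (∀ᶠ n in (𝒰 : Filter ι), ‖fderiv ℂ g z‖ / 2 ≤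
        ‖fderiv ℂ (fun y => (f n y - cf n) / (ε n : ℂ)) z‖) →
      ∀ᶠ n in (𝒰 : Filter ι), ‖fderiv ℂ g z‖ / 2 * ε n ≤ ‖fderiv ℂ (f n) z‖ := by
    intro f cf z g _ h
    filter_upwards [h, hε] with n hn h0
    have e1 : (fun y => (f n y - cf n) / (ε n : ℂ)) = ((ε n : ℂ)⁻¹) • (fun y => f n y - cf n) := by
      funext y
      rw [Pi.smul_apply, smul_eq_mul, div_eq_inv_mul]
    rw [e1, fderiv_const_smul_field, Pi.smul_apply, fderiv_sub_const, norm_smul, norm_inv,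
      Complex.norm_real, Real.norm_of_nonneg h0.le, inv_mul_eq_div, le_div_iff₀ h0] at hn
    exact hn
  by_cases hA : A' x₁ = A' x₂
  · have hP : P' x₁ ≠ P' x₂ := by
      intro hP
      rw [hA, hP, sub_self, sub_self, norm_zero, add_zero] at k4
      linarith
    obtain ⟨z, hz, hz0⟩ := key P' dP hP
    have hn0 : 0 < ‖fderiv ℂ P' z‖ := norm_pos_iff.2 hz0
    refine ⟨‖fderiv ℂ P' z‖ / 2, by positivity, z, hz, ?_⟩
    filter_upwards [fin p cp z P' hn0 (fderiv_low hD lp tP dP hz hz0)] with n hn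
    have := norm_nonneg (fderiv ℂ (a n) z)
    linarith
  · obtain ⟨z, hz, hz0⟩ := key A' dA hA
    have hn0 : 0 < ‖fderiv ℂ A' z‖ := norm_pos_iff.2 hz0
    refine ⟨‖fderiv ℂ A' z‖ / 2, by positivity, z, hz, ?_⟩
    filter_upwards [fin a ca z A' hn0 (fderiv_low hD la tA dA hz hz0)] with n hn
    have := norm_nonneg (fderiv ℂ (p n) z)
    linarith

end

end Vale.Agent.P097.H109.NCst
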