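import Mathlib.Analysis.Complex.Schwarz
import Mathlib.Analysis.Complex.AbsMax
import Mathlib.Analysis.Complex.Exponential

/-!
# P097, Bishop discs: from vertical and horizontal quotients to nontangential ones

`nt` : `H` holomorphic on the upper half plane, continuous up to the boundary, `Re H ≥ 0`,
`Re H(x₀) = 0`, `|H(x₀ + i r) - H(x₀)| ≤ ε r` and `|H(x) - H(x₀)| ≤ ε |x - x₀|` for `r, |x - x₀| ≤ 1`.
Then `|H(x₀ + w) - H(x₀)| ≤ 27 ε |w|` for all `w` in the closed upper half disc of radius `1/2`.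
-/

open Complex Metric Set Filter Topology
open scoped ComplexConjugate

namespace Vale.Agent.P097.H109.NT

theorem norm_sub_le_add_conj {a b : ℂ} (ha : 0 ≤ a.re) (hb : 0 ≤ b.re) :
    ‖a - b‖ ≤ ‖a + conj b‖ := by
  rw [← sq_le_sq₀ (norm_nonneg _) (norm_nonneg _), Complex.sq_norm, Complex.sq_norm,
    Complex.normSq_apply, Complex.normSq_apply]
  simp only [Complex.sub_re, Complex.sub_im, Complex.add_re, Complex.add_im, Complex.conj_re,
    Complex.conj_im]
  nlinarith [mul_nonneg ha hb]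

/-- Schwarz-Pick for maps from the upper half plane to the right half plane -/
theorem pick_half {H : ℂ → ℂ} (hd : DifferentiableOn ℂ H {z | 0 < z.im})
    (h0 : ∀ z : ℂ, 0 < z.im → 0 ≤ (H z).re) {ρ : ℝ} (hρ : 0 < ρ) {w : ℂ} (hw : 0 < w.im) :
    ‖H w - H (ρ * I)‖ * ‖w + ρ * I‖ ≤
      ‖w - ρ * I‖ * (‖H w - H (ρ * I)‖ + 2 * (H (ρ * I)).re) := by
  have hρI : (0 : ℝ) < ((ρ : ℂ) * I).im := by simpa using hρ
  have hwn : w + ρ * I ≠ 0 := by
    intro h
    have := congrArg Complex.im h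
    simp at this
    linarith
  have hwn' : 0 < ‖w + ρ * I‖ := norm_pos_iff.2 hwn
  have key : ∀ η : ℝ, 0 < η → ‖H w - H (ρ * I)‖ * ‖w + ρ * I‖ ≤
      ‖w - ρ * I‖ * (‖H w - H (ρ * I)‖ + 2 * (H (ρ * I)).re + 2 * η) := by
    intro η hη
    set φ : ℂ → ℂ := fun ζ => ρ * I * (1 + ζ) / (1 - ζ) with hφ
    have h1n : ∀ ζ ∈ ball (0 : ℂ) 1, (1 : ℂ) - ζ ≠ 0 := by
      intro ζ hζ h
      rw [mem_ball_zero_iff] at hζ
      have : ζ = 1 := by linear_combination -h
      rw [this] at hζ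
      simp at hζ
    have hφim : ∀ ζ ∈ ball (0 : ℂ) 1, 0 < (φ ζ).im := by
      intro ζ hζ
      have hn := h1n ζ hζ
      rw [mem_ball_zero_iff] at hζ
      have h2 : (φ ζ).im = ρ * (1 - Complex.normSq ζ) / Complex.normSq (1 - ζ) := by
        simp only [hφ]
        rw [Complex.div_im]
        simp only [Complex.mul_re, Complex.mul_im, Complex.ofReal_re, Complex.ofReal_im,
          Complex.I_re, Complex.I_im, Complex.add_re, Complex.add_im, Complex.one_re,
          Complex.one_im, Complex.sub_re, Complex.sub_im]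
        have hq : Complex.normSq (1 - ζ) ≠ 0 := by simpa using hn
        rw [Complex.normSq_apply ζ]
        field_simp
        ring
      rw [h2]
      have h3 : Complex.normSq ζ < 1 := by
        rw [Complex.normSq_eq_norm_sq]
        nlinarith [norm_nonneg ζ]
      have h4 : 0 < Complex.normSq (1 - ζ) := Complex.normSq_pos.2 hn
      have h5 : 0 < 1 - Complex.normSq ζ := by linarith
      positivity
    have hφd : DifferentiableOn ℂ φ (ball 0 1) := by
      refine DifferentiableOn.div (by fun_prop) (by fun_prop) h1n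
    set f : ℂ → ℂ := fun ζ => (H (φ ζ) - H (ρ * I)) / (H (φ ζ) + conj (H (ρ * I)) + 2 * η) with hf
    have hden : ∀ ζ ∈ ball (0 : ℂ) 1, H (φ ζ) + conj (H (ρ * I)) + 2 * η ≠ 0 := by
      intro ζ hζ h
      have h1 := congrArg Complex.re h
      simp at h1
      have h2 := h0 _ (hφim ζ hζ)
      have h3 := h0 _ hρI
      linarith
    have hfd : DifferentiableOn ℂ f (ball 0 1) := by
      have h1 : DifferentiableOn ℂ (fun ζ => H (φ ζ)) (ball 0 1) :=
        hd.comp hφd fun ζ hζ => hφim ζ hζ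
      exact (h1.sub_const _).div ((h1.add_const _).add_const _) hden
    have hfm : MapsTo f (ball 0 1) (closedBall 0 1) := by
      intro ζ hζ
      rw [mem_closedBall_zero_iff]
      simp only [hf]
      rw [norm_div, div_le_one (norm_pos_iff.2 (hden ζ hζ))]
      have h2 := h0 _ (hφim ζ hζ)
      have h3 := h0 _ hρI
      have h4 := norm_sub_le_add_conj (a := H (φ ζ) + η) (b := H (ρ * I) + η)
        (by simp; linarith) (by simp; linarith)
      have e1 : H (φ ζ) + η - (H (ρ * I) + η) = H (φ ζ) - H (ρ * I) := by ring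
      have e2 : H (φ ζ) + η + conj (H (ρ * I) + η) = H (φ ζ) + conj (H (ρ * I)) + 2 * η := by
        rw [map_add, Complex.conj_ofReal]
        ring
      rwa [e1, e2] at h4
    have hf0 : f 0 = 0 := by
      simp only [hf, hφ]
      simp
    set ζ₀ : ℂ := (w - ρ * I) / (w + ρ * I) with hζ₀
    have hζn : ‖ζ₀‖ < 1 := by
      rw [hζ₀, norm_div, div_lt_one hwn', ← sq_lt_sq₀ (norm_nonneg _) (norm_nonneg _),
        Complex.sq_norm, Complex.sq_norm, Complex.normSq_apply, Complex.normSq_apply]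
      simp
      nlinarith
    have hφw : φ ζ₀ = w := by
      simp only [hφ, hζ₀]
      have h1 : (1 : ℂ) - (w - ρ * I) / (w + ρ * I) = 2 * ρ * I / (w + ρ * I) := by
        field_simp
        ring
      have h2 : (1 : ℂ) + (w - ρ * I) / (w + ρ * I) = 2 * w / (w + ρ * I) := by
        field_simp
        ring
      rw [h1, h2]
      have h3 : (ρ : ℂ) ≠ 0 := by exact_mod_cast hρ.ne'
      have h4 := I_ne_zero
      field_simp
    have h5 := Complex.norm_le_norm_of_mapsTo_ball hfd hfm hf0 hζn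
    have hd2 := hden ζ₀ (by rw [mem_ball_zero_iff]; exact hζn)
    simp only [hf] at h5
    rw [hφw] at h5 hd2
    rw [norm_div, hζ₀, norm_div, div_le_div_iff₀ (norm_pos_iff.2 hd2) hwn'] at h5
    refine h5.trans ?_
    gcongr
    have e3 : H w + conj (H (ρ * I)) + 2 * η =
        (H w - H (ρ * I)) + ((2 * (H (ρ * I)).re + 2 * η : ℝ) : ℂ) := by
      have := Complex.add_conj (H (ρ * I))
      push_cast
      push_cast at this
      linear_combination this
    rw [e3]
    refine (norm_add_le _ _).trans ?_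
    rw [Complex.norm_real, Real.norm_eq_abs, abs_of_nonneg (by have := h0 _ hρI; linarith)]
    linarith
  refine le_of_forall_pos_le_add fun e he => ?_
  have h6 := key (e / (2 * (‖w - ρ * I‖ + 1))) (by positivity)
  have h7 : ‖w - ρ * I‖ * (2 * (e / (2 * (‖w - ρ * I‖ + 1)))) ≤ e := by
    have h8 : ‖w - ρ * I‖ * (2 * (e / (2 * (‖w - ρ * I‖ + 1)))) =
      e * (‖w - ρ * I‖ / (‖w - ρ * I‖ + 1)) := by field_simp
    rw [h8]
    have h9 : ‖w - ρ * I‖ / (‖w - ρ * I‖ + 1) ≤ 1 := by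
      rw [div_le_one (by positivity)]; linarith
    nlinarith
  nlinarith

theorem pick_circle {H : ℂ → ℂ} (hd : DifferentiableOn ℂ H {z | 0 < z.im})
    (h0 : ∀ z : ℂ, 0 < z.im → 0 ≤ (H z).re) {ρ : ℝ} (hρ : 0 < ρ) {w : ℂ} (hw : 0 < w.im)
    (hwρ : ‖w‖ = ρ) : ‖H w - H (ρ * I)‖ * w.im ≤ 4 * ρ * (H (ρ * I)).re := by
  have h1 := pick_half hd h0 hρ hw
  set X := ‖H w - H (ρ * I)‖ with hX
  set a := (H (ρ * I)).re with ha
  have ha0 : 0 ≤ a := h0 _ (by simpa using hρ)
  have hX0 : 0 ≤ X := norm_nonneg _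
  have hρn : ‖(ρ : ℂ) * I‖ = ρ := by simp [abs_of_pos hρ]
  have hs : ‖w + ρ * I‖ ≤ 2 * ρ := by
    refine (norm_add_le _ _).trans ?_
    rw [hwρ, hρn]; linarith
  have hd' : ‖w - ρ * I‖ ≤ 2 * ρ := by
    refine (norm_sub_le _ _).trans ?_
    rw [hwρ, hρn]; linarith
  have hsq : ‖w + ρ * I‖ ^ 2 - ‖w - ρ * I‖ ^ 2 = 4 * ρ * w.im := by
    rw [Complex.sq_norm, Complex.sq_norm, Complex.normSq_apply, Complex.normSq_apply]
    simp
    ring
  have hsum : 0 < ‖w + ρ * I‖ + ‖w - ρ * I‖ := by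
    have : 0 < ‖w + ρ * I‖ := by
      refine norm_pos_iff.2 fun h => ?_
      have := congrArg Complex.im h
      simp at this
      linarith
    positivity
  have hdiff : w.im ≤ ‖w + ρ * I‖ - ‖w - ρ * I‖ := by
    have h2 : (‖w + ρ * I‖ - ‖w - ρ * I‖) * (‖w + ρ * I‖ + ‖w - ρ * I‖) = 4 * ρ * w.im := by
      rw [← hsq]; ring
    have h3 : ‖w + ρ * I‖ + ‖w - ρ * I‖ ≤ 4 * ρ := by linarith
    by_contra hcon
    rw [not_le] at hcon
    nlinarith
  have h4 : X * (‖w + ρ * I‖ - ‖w - ρ * I‖) ≤ 2 * a * ‖w - ρ * I‖ := by nlinarith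
  nlinarith [mul_le_mul_of_nonneg_left hdiff hX0, mul_le_mul_of_nonneg_left hd' ha0]

/-- **the nontangential bound**, base point `0` -/
theorem nt0 {H : ℂ → ℂ} (hd : DiffContOnCl ℂ H {z | 0 < z.im})
    (h0 : ∀ z : ℂ, 0 ≤ z.im → 0 ≤ (H z).re) {ε : ℝ} (hε : 0 ≤ ε) (hz : (H 0).re = 0)
    (hv : ∀ r : ℝ, 0 < r → r ≤ 1 → ‖H (r * I) - H 0‖ ≤ ε * r)
    (hh : ∀ x : ℝ, |x| ≤ 1 → ‖H x - H 0‖ ≤ ε * |x|) {w : ℂ} (hw : 0 ≤ w.im) (hw2 : ‖w‖ ≤ 1 / 2) :
    ‖H w - H 0‖ ≤ 27 * ε * ‖w‖ := by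
  rcases eq_or_ne w 0 with rfl | hw0
  · simp
  have hwp : 0 < ‖w‖ := norm_pos_iff.2 hw0
  set G : ℂ → ℂ := fun z => (H z - H 0) / z with hG
  -- the interior bound on circles
  have hcirc : ∀ z : ℂ, 0 ≤ z.im → 0 < ‖z‖ → ‖z‖ ≤ 1 → ‖G z‖ * z.im ≤ 5 * ε * ‖z‖ := by
    intro z hz0 hzp hz1
    rcases hz0.eq_or_lt with h | h
    · rw [← h, mul_zero]; positivity
    · have h1 := pick_circle hd.differentiableOn (fun z hz => h0 z hz.le) hzp h rfl
      have h2 := hv ‖z‖ hzp hz1
      have h3 : (H (‖z‖ * I)).re ≤ ε * ‖z‖ := by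
        have h4 := (Complex.abs_re_le_norm (H (‖z‖ * I) - H 0)).trans h2
        rw [Complex.sub_re, hz, sub_zero] at h4
        exact (le_abs_self _).trans h4
      have h5 : ‖H z - H 0‖ ≤ ‖H z - H (‖z‖ * I)‖ + ‖H (‖z‖ * I) - H 0‖ := by
        have : H z - H 0 = (H z - H (‖z‖ * I)) + (H (‖z‖ * I) - H 0) := by ring
        rw [this]
        exact norm_add_le _ _
      have h6 : z.im ≤ ‖z‖ := (le_abs_self _).trans (Complex.abs_im_le_norm z)
      have h7 : ‖H z - H 0‖ * z.im ≤ 5 * ε * ‖z‖ ^ 2 := by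
        have h8 : ‖H z - H (‖z‖ * I)‖ * z.im ≤ 4 * ‖z‖ * (ε * ‖z‖) :=
          h1.trans (by gcongr)
        have h9 : ‖H (‖z‖ * I) - H 0‖ * z.im ≤ (ε * ‖z‖) * ‖z‖ := by gcongr
        nlinarith
      simp only [hG, norm_div]
      rw [div_mul_eq_mul_div, div_le_iff₀ hzp]
      nlinarith
  have hreal : ∀ z : ℂ, z.im = 0 → 0 < ‖z‖ → ‖z‖ ≤ 1 → ‖G z‖ ≤ ε := by
    intro z hz0 hzp hz1
    have e1 : z = (z.re : ℂ) := by
      apply Complex.ext <;> simp [hz0]
    have e2 : ‖z‖ = |z.re| := by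
      rw [e1, Complex.norm_real, Real.norm_eq_abs, Complex.ofReal_re]
    have h1 := hh z.re (by rw [← e2]; exact hz1)
    rw [← e1, ← e2] at h1
    simp only [hG, norm_div]
    rwa [div_le_iff₀ hzp]
  -- the auxiliary functions
  have main : ∀ δ : ℝ, 0 < δ → δ < ‖w‖ →
      ‖G w * (1 - w ^ 2) * (1 - (δ : ℂ) ^ 2 / w ^ 2)‖ ≤ 20 * ε := by
    intro δ hδ hδw
    set U : Set ℂ := {z | 0 < z.im} ∩ {z | δ < ‖z‖} ∩ ball 0 1 with hU
    have hUb : Bornology.IsBounded U := isBounded_ball.subset inter_subset_right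
    have hUcl : closure U ⊆ {z | 0 ≤ z.im ∧ δ ≤ ‖z‖ ∧ ‖z‖ ≤ 1} := by
      refine closure_minimal (fun z hz => ⟨le_of_lt hz.1.1, le_of_lt hz.1.2, ?_⟩) ?_
      · exact (mem_ball_zero_iff.1 hz.2).le
      · exact (isClosed_le continuous_const Complex.continuous_im).inter
          ((isClosed_le continuous_const continuous_norm).inter
            (isClosed_le continuous_norm continuous_const))
    have hUo : IsOpen U := ((isOpen_lt continuous_const Complex.continuous_im).inter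
      (isOpen_lt continuous_const continuous_norm)).inter isOpen_ball
    have hUne : ∀ z ∈ closure U, z ≠ 0 := by
      intro z hz h
      have := (hUcl hz).2.1
      rw [h, norm_zero] at this
      linarith
    have hGd : DiffContOnCl ℂ (fun z => G z * (1 - z ^ 2) * (1 - (δ : ℂ) ^ 2 / z ^ 2)) U := by
      have hHd : DiffContOnCl ℂ H U := hd.mono fun z hz => hz.1.1
      refine ⟨?_, ?_⟩
      · have hne : ∀ z ∈ U, z ≠ 0 := fun z hz => hUne z (subset_closure hz)
        refine DifferentiableOn.mul (DifferentiableOn.mul ?_ (by fun_prop)) ?_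
        · exact (hHd.differentiableOn.sub_const _).div differentiableOn_id hne
        · refine DifferentiableOn.sub (by fun_prop) ?_
          exact DifferentiableOn.div (by fun_prop) (by fun_prop) fun z hz => pow_ne_zero 2 (hne z hz)
      · refine ContinuousOn.mul (ContinuousOn.mul ?_ (by fun_prop)) ?_
        · exact (hHd.continuousOn.sub continuousOn_const).div continuousOn_id hUne
        · refine ContinuousOn.sub (by fun_prop) ?_
          exact ContinuousOn.div (by fun_prop) (by fun_prop) fun z hz => pow_ne_zero 2 (hUne z hz)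
    have hfr : ∀ z ∈ frontier U,
        ‖(fun z => G z * (1 - z ^ 2) * (1 - (δ : ℂ) ^ 2 / z ^ 2)) z‖ ≤ 20 * ε := by
      intro z hz
      have hzc : z ∈ closure U := frontier_subset_closure hz
      obtain ⟨hz1, hz2, hz3⟩ := hUcl hzc
      have hzp : 0 < ‖z‖ := lt_of_lt_of_le hδ hz2
      have hzU : z ∉ U := by
        rw [hUo.frontier_eq] at hz
        exact hz.2
      have hδ1 : δ ≤ 1 := hz2.trans hz3
      have hz0 : z ≠ 0 := hUne z hzc
      -- general bounds
      have b1 : ‖(1 : ℂ) - z ^ 2‖ ≤ 2 := by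
        refine (norm_sub_le _ _).trans ?_
        rw [norm_one, norm_pow]
        nlinarith [norm_nonneg z]
      have b2 : ‖(1 : ℂ) - (δ : ℂ) ^ 2 / z ^ 2‖ ≤ 2 := by
        refine (norm_sub_le _ _).trans ?_
        rw [norm_one, norm_div, norm_pow, norm_pow, Complex.norm_real, Real.norm_eq_abs,
          abs_of_pos hδ]
        have : δ ^ 2 / ‖z‖ ^ 2 ≤ 1 := by
          rw [div_le_one (by positivity)]
          gcongr
        linarith
      have hcz := hcirc z hz1 hzp hz3
      have him : ‖z - conj z‖ = 2 * z.im := by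
        rw [Complex.sub_conj]
        simp [abs_of_nonneg hz1]
      have hmc : z * conj z = ((‖z‖ ^ 2 : ℝ) : ℂ) := by
        rw [Complex.mul_conj, Complex.normSq_eq_norm_sq]
      simp only [norm_mul]
      rcases hz1.eq_or_lt with him0 | himp
      · -- real points
        have h1 := hreal z him0.symm hzp hz3
        have e1 : z = (z.re : ℂ) := by
          apply Complex.ext <;> simp [him0.symm]
        have hzr : ‖z‖ = |z.re| := by
          rw [e1, Complex.norm_real, Real.norm_eq_abs, Complex.ofReal_re]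
        nlinarith [norm_nonneg (G z), norm_nonneg ((1 : ℂ) - z ^ 2),
          norm_nonneg ((1 : ℂ) - (δ : ℂ) ^ 2 / z ^ 2),
          mul_le_mul h1 b1 (norm_nonneg _) hε,
          mul_le_mul (mul_le_mul h1 b1 (norm_nonneg _) hε) b2 (norm_nonneg _) (by positivity)]
      · have hcase : ‖z‖ = δ ∨ ‖z‖ = 1 := by
          by_contra hcon
          rw [not_or] at hcon
          exact hzU ⟨⟨himp, lt_of_le_of_ne hz2 (Ne.symm hcon.1)⟩,
            mem_ball_zero_iff.2 (lt_of_le_of_ne hz3 hcon.2)⟩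
        rcases hcase with hc | hc
        · have e1 : ‖(1 : ℂ) - (δ : ℂ) ^ 2 / z ^ 2‖ = 2 * z.im / ‖z‖ := by
            have e2 : (1 : ℂ) - (δ : ℂ) ^ 2 / z ^ 2 = (z - conj z) / z := by
              have e3 : ((δ : ℂ)) ^ 2 = z * conj z := by
                rw [hmc, hc]
                push_cast
                rfl
              rw [e3]
              field_simp
            rw [e2, norm_div, him]
          rw [e1]
          calc ‖G z‖ * ‖(1 : ℂ) - z ^ 2‖ * (2 * z.im / ‖z‖)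
              = (‖G z‖ * z.im) * (‖(1 : ℂ) - z ^ 2‖ * 2 / ‖z‖) := by ring
            _ ≤ (5 * ε * ‖z‖) * (2 * 2 / ‖z‖) := by gcongr
            _ = 20 * ε := by field_simp; ring
        · have e1 : ‖(1 : ℂ) - z ^ 2‖ = 2 * z.im := by
            have e2 : (1 : ℂ) - z ^ 2 = -(z * (z - conj z)) := by
              have e3 : z * conj z = 1 := by rw [hmc, hc]; norm_num
              linear_combination -e3
            rw [e2, norm_neg, norm_mul, him, hc, one_mul]
          rw [e1]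
          calc ‖G z‖ * (2 * z.im) * ‖(1 : ℂ) - (δ : ℂ) ^ 2 / z ^ 2‖
              = (‖G z‖ * z.im) * (2 * ‖(1 : ℂ) - (δ : ℂ) ^ 2 / z ^ 2‖) := by ring
            _ ≤ (5 * ε * ‖z‖) * (2 * 2) := by gcongr
            _ = 20 * ε := by rw [hc]; ring
    have hwU : w ∈ closure U := by
      rcases hw.eq_or_lt with h | h
      · -- approximate from inside
        have ht : Tendsto (fun s : ℝ => w + s * I) (𝓝[>] 0) (𝓝 w) := by
          have : Tendsto (fun s : ℝ => w + s * I) (𝓝 0) (𝓝 (w + (0 : ℝ) * I)) :=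
            (by fun_prop : Continuous fun s : ℝ => w + s * I).tendsto 0
          simp only [Complex.ofReal_zero, zero_mul, add_zero] at this
          exact this.mono_left nhdsWithin_le_nhds
        refine mem_closure_of_tendsto ht ?_
        have h1 : ∀ᶠ s : ℝ in 𝓝[>] 0, δ < ‖w + s * I‖ :=
          ht.norm.eventually (lt_mem_nhds hδw)
        have h2 : ∀ᶠ s : ℝ in 𝓝[>] 0, ‖w + s * I‖ < 1 :=
          ht.norm.eventually (gt_mem_nhds (by linarith))
        filter_upwards [h1, h2, self_mem_nhdsWithin] with s hs1 hs2 hs3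
        refine ⟨⟨?_, hs1⟩, mem_ball_zero_iff.2 hs2⟩
        have : (0 : ℝ) < s := hs3
        simp [← h, this]
      · exact subset_closure ⟨⟨h, hδw⟩, mem_ball_zero_iff.2 (by linarith)⟩
    exact Complex.norm_le_of_forall_mem_frontier_norm_le hUb hGd hfr hwU
  have hlim : ‖G w * (1 - w ^ 2)‖ ≤ 20 * ε := by
    have ht : Tendsto (fun δ : ℝ => ‖G w * (1 - w ^ 2) * (1 - (δ : ℂ) ^ 2 / w ^ 2)‖) (𝓝[>] 0)
        (𝓝 ‖G w * (1 - w ^ 2) * (1 - ((0 : ℝ) : ℂ) ^ 2 / w ^ 2)‖) := by
      refine Tendsto.mono_left (Continuous.tendsto ?_ 0) nhdsWithin_le_nhds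
      fun_prop
    have h1 := le_of_tendsto ht (b := 20 * ε) ?_
    · simpa using h1
    · filter_upwards [self_mem_nhdsWithin, nhdsWithin_le_nhds (gt_mem_nhds hwp)] with δ h1 h2
      exact main δ h1 h2
  have hlow : 3 / 4 ≤ ‖(1 : ℂ) - w ^ 2‖ := by
    have h1 := norm_sub_norm_le (1 : ℂ) (w ^ 2)
    rw [norm_one, norm_pow] at h1
    nlinarith [norm_nonneg w]
  rw [norm_mul] at hlim
  have hGw : ‖G w‖ ≤ 27 * ε := by
    nlinarith [norm_nonneg (G w)]
  have : ‖H w - H 0‖ = ‖G w‖ * ‖w‖ := by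
    simp only [hG, norm_div]
    field_simp
  rw [this]
  gcongr

/-- **the nontangential bound** -/
theorem nt {H : ℂ → ℂ} (hd : DiffContOnCl ℂ H {z | 0 < z.im})
    (h0 : ∀ z : ℂ, 0 ≤ z.im → 0 ≤ (H z).re) {ε x₀ : ℝ} (hε : 0 ≤ ε) (hz : (H x₀).re = 0)
    (hv : ∀ r : ℝ, 0 < r → r ≤ 1 → ‖H (x₀ + r * I) - H x₀‖ ≤ ε * r)
    (hh : ∀ x : ℝ, |x - x₀| ≤ 1 → ‖H x - H x₀‖ ≤ ε * |x - x₀|) {w : ℂ} (hw : 0 ≤ w.im)
    (hw2 : ‖w‖ ≤ 1 / 2) : ‖H (x₀ + w) - H x₀‖ ≤ 27 * ε * ‖w‖ := by
  have hc : DiffContOnCl ℂ (fun w => H (x₀ + w)) {z | 0 < z.im} := by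
    refine hd.comp (DifferentiableOn.diffContOnCl ?_) ?_
    · fun_prop
    · intro z hz
      simpa using hz
  have := nt0 hc (fun z hz => h0 _ (by simpa using hz)) hε (by simpa using hz)
    (fun r hr hr1 => by simpa using hv r hr hr1)
    (fun x hx => by simpa using hh (x₀ + x) (by simpa using hx)) hw hw2
  simpa using this

end Vale.Agent.P097.H109.NT
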