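import Vale.Agent.P112.H967.HL
import Mathlib.Analysis.Complex.Poisson
import Mathlib.Analysis.SpecialFunctions.Integrals.Basic
import Mathlib.MeasureTheory.Integral.IntervalIntegral.Periodic
import Mathlib.Analysis.PSeries

/-!
# P097, row D3 of the Bishop discs: radial maximal estimate for periodic Hardy functions

`Hs a z = ∑' n, a n * exp (i ω n z)`, `ω = π / 2` (period 4).  If `∑ n² |a n|² < ∞` then the set of the
real `x` (one period) for which `|Hs a (x + i r) - Hs a x| > ε r` for some `r > 0` has measure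
`≤ 64 π² (∑ n² |a n|²) / ε²`.
-/

open MeasureTheory Set Metric Complex
open scoped ENNReal Real

namespace Vale.Agent.P097.H109

open Vale.Agent.P112.HL

/-! ## radially decreasing kernels and the maximal function -/

theorem closedBall_le_MF (f : ℝ → ℝ≥0∞) (x : ℝ) {ρ : ℝ} (hρ : 0 < ρ) :
    ∫⁻ y in closedBall x ρ, f y ≤ MF f x * ENNReal.ofReal (2 * ρ) := by
  have h1 : ∫⁻ y in closedBall x ρ, f y = ∫⁻ y in ball x ρ, f y := by
    rw [Real.closedBall_eq_Icc, Real.ball_eq_Ioo]
    exact (setLIntegral_congr Ioo_ae_eq_Icc).symm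
  rw [h1]
  have h2 := avg_le_MF f (mem_ball_self (x := x) hρ)
  rwa [ENNReal.div_le_iff (by simpa using hρ) ENNReal.ofReal_ne_top] at h2

theorem set_le_MF (f : ℝ → ℝ≥0∞) (x : ℝ) (S : Set ℝ)
    (hS : ∀ t ∈ S, ∀ u : ℝ, |u| ≤ |t| → u ∈ S) (hb : ∀ t ∈ S, |t| ≤ 2) :
    ∫⁻ t in S, f (x - t) ≤ MF f x * volume S := by
  by_cases h0 : ∃ t ∈ S, t ≠ 0
  · obtain ⟨t0, ht0, ht00⟩ := h0
    set A : Set ℝ := (fun t => |t|) '' S with hA
    have hAb : BddAbove A := ⟨2, by rintro _ ⟨t, ht, rfl⟩; exact hb t ht⟩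
    have hAn : A.Nonempty := ⟨_, mem_image_of_mem _ ht0⟩
    set ρ := sSup A with hρ
    have hρ0 : 0 < ρ := lt_of_lt_of_le (abs_pos.2 ht00) (le_csSup hAb (mem_image_of_mem _ ht0))
    have hsub1 : ball (0 : ℝ) ρ ⊆ S := by
      intro u hu
      rw [mem_ball_zero_iff, Real.norm_eq_abs] at hu
      obtain ⟨_, ⟨t, ht, rfl⟩, h⟩ := exists_lt_of_lt_csSup hAn hu
      exact hS t ht u h.le
    have hsub2 : S ⊆ closedBall (0 : ℝ) ρ := by
      intro u hu
      rw [mem_closedBall_zero_iff, Real.norm_eq_abs]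
      exact le_csSup hAb (mem_image_of_mem _ hu)
    calc ∫⁻ t in S, f (x - t) ≤ ∫⁻ t in closedBall (0 : ℝ) ρ, f (x - t) :=
          lintegral_mono_set hsub2
      _ = ∫⁻ y in closedBall x ρ, f y := by
          have h := (Measure.measurePreserving_sub_left (volume : Measure ℝ) x).setLIntegral_comp_preimage_emb
            (Homeomorph.subLeft x).measurableEmbedding f (closedBall x ρ)
          rw [← h]
          congr 2
          ext t
          simp [mem_closedBall]
      _ ≤ MF f x * ENNReal.ofReal (2 * ρ) := closedBall_le_MF f x hρ0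
      _ = MF f x * volume (ball (0 : ℝ) ρ) := by rw [Real.volume_ball]
      _ ≤ MF f x * volume S := by gcongr
  · push Not at h0
    have : S ⊆ {0} := fun t ht => h0 t ht
    have h1 : volume S = 0 := measure_mono_null this (by simp)
    rw [setLIntegral_measure_zero _ _ h1]
    simp

/-- a radially decreasing kernel supported in `[-2, 2]` is dominated by the maximal function -/
theorem kernel_le_MF {K f : ℝ → ℝ≥0∞} (hK : Measurable K) (hf : Measurable f)
    (hd : ∀ t u : ℝ, |u| ≤ |t| → K t ≤ K u) (h2 : ∀ t, 2 < |t| → K t = 0) (x : ℝ) :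
    ∫⁻ t, K t * f (x - t) ≤ MF f x * ∫⁻ t, K t := by
  have hone : ∀ a : ℝ≥0∞, ∫⁻ l in Ioi (0 : ℝ), (if ENNReal.ofReal l < a then (1 : ℝ≥0∞) else 0) = a := by
    intro a
    have h := lin_pow a (p := 1) one_pos
    rw [ENNReal.rpow_one] at h
    refine Eq.trans ?_ h
    refine setLIntegral_congr_fun measurableSet_Ioi fun l hl => ?_
    simp
  have hmeasS : ∀ l : ℝ, MeasurableSet {t | ENNReal.ofReal l < K t} := fun l =>
    measurableSet_lt measurable_const hK
  calc ∫⁻ t, K t * f (x - t)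
      = ∫⁻ t, ∫⁻ l in Ioi (0 : ℝ), (if ENNReal.ofReal l < K t then f (x - t) else 0) := by
        refine lintegral_congr fun t => ?_
        nth_rewrite 1 [← hone (K t)]
        rw [← lintegral_mul_const _ ?_]
        · refine lintegral_congr fun l => ?_
          split_ifs <;> simp
        · refine Measurable.ite ?_ measurable_const measurable_const
          exact measurableSet_lt (by fun_prop) measurable_const
    _ = ∫⁻ l in Ioi (0 : ℝ), ∫⁻ t, (if ENNReal.ofReal l < K t then f (x - t) else 0) := by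
        refine lintegral_lintegral_swap ?_
        refine Measurable.aemeasurable ?_
        refine Measurable.ite ?_ (by fun_prop) measurable_const
        exact measurableSet_lt (by fun_prop) (by fun_prop)
    _ = ∫⁻ l in Ioi (0 : ℝ), ∫⁻ t in {t | ENNReal.ofReal l < K t}, f (x - t) := by
        refine lintegral_congr fun l => ?_
        rw [← lintegral_indicator (hmeasS l)]
        refine lintegral_congr fun t => ?_
        simp only [indicator, mem_ofPred_eq]
    _ ≤ ∫⁻ l in Ioi (0 : ℝ), MF f x * volume {t | ENNReal.ofReal l < K t} := by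
        refine lintegral_mono fun l => ?_
        refine set_le_MF f x _ (fun t ht u hu => ?_) (fun t ht => ?_)
        · exact lt_of_lt_of_le ht (hd t u hu)
        · by_contra h
          rw [mem_ofPred_eq, h2 t (not_le.1 h)] at ht
          exact not_lt_zero ht
    _ = MF f x * ∫⁻ l in Ioi (0 : ℝ), volume {t | ENNReal.ofReal l < K t} := by
        rw [lintegral_const_mul]
        refine Antitone.measurable fun l l' hl => ?_
        exact measure_mono fun t ht => lt_of_le_of_lt (ENNReal.ofReal_le_ofReal hl) ht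
    _ = MF f x * ∫⁻ t, K t := by
        congr 1
        have h := layer volume hK (p := 1) one_pos
        simp only [ENNReal.rpow_one] at h
        rw [h]
        refine setLIntegral_congr_fun measurableSet_Ioi fun l hl => ?_
        simp


/-! ## the periodic Poisson kernel -/

/-- the frequency `π / 2` (period 4) -/
noncomputable def om : ℝ := π / 2

theorem om_pos : 0 < om := by unfold om; positivity

/-- the Poisson kernel of period 4 -/
noncomputable def ker (q t : ℝ) : ℝ := (1 / 4) * ((1 - q ^ 2) / (1 - 2 * q * Real.cos (om * t) + q ^ 2))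

theorem den_pos {q : ℝ} (hq1 : |q| < 1) (t : ℝ) : 0 < 1 - 2 * q * Real.cos t + q ^ 2 := by
  have h1 := Real.cos_sq_add_sin_sq t
  have h2 : 1 - 2 * q * Real.cos t + q ^ 2 = (1 - q * Real.cos t) ^ 2 + (q * Real.sin t) ^ 2 := by
    nlinarith
  rw [h2]
  have h3 : |q * Real.cos t| < 1 := by
    rw [abs_mul]
    calc |q| * |Real.cos t| ≤ |q| * 1 := by gcongr; exact Real.abs_cos_le_one t
      _ < 1 := by simpa using hq1
  have h4 : 0 < 1 - q * Real.cos t := by linarith [(abs_lt.1 h3).2]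
  positivity

theorem ker_nonneg {q : ℝ} (hq0 : 0 ≤ q) (hq1 : q < 1) (t : ℝ) : 0 ≤ ker q t := by
  unfold ker
  have h1 := den_pos (q := q) (by rwa [abs_of_nonneg hq0]) (om * t)
  have h2 : 0 ≤ 1 - q ^ 2 := by nlinarith
  positivity

theorem ker_cont {q : ℝ} (hq0 : 0 ≤ q) (hq1 : q < 1) : Continuous (ker q) := by
  unfold ker
  refine continuous_const.mul (continuous_const.div (by fun_prop) fun t => ?_)
  exact (den_pos (q := q) (by rwa [abs_of_nonneg hq0]) (om * t)).ne'

theorem ker_anti {q : ℝ} (hq0 : 0 ≤ q) (hq1 : q < 1) {t u : ℝ} (ht : |t| ≤ 2) (hu : |u| ≤ |t|) :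
    ker q t ≤ ker q u := by
  unfold ker
  have h1 := den_pos (q := q) (by rwa [abs_of_nonneg hq0]) (om * t)
  have h2 := den_pos (q := q) (by rwa [abs_of_nonneg hq0]) (om * u)
  have h3 : 0 ≤ 1 - q ^ 2 := by nlinarith
  have h4 : Real.cos (om * t) ≤ Real.cos (om * u) := by
    rw [← Real.cos_abs (om * t), ← Real.cos_abs (om * u), abs_mul, abs_mul, abs_of_pos om_pos]
    refine Real.cos_le_cos_of_nonneg_of_le_pi (by have := om_pos; positivity) ?_ ?_
    · unfold om; nlinarith [Real.pi_pos]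
    · have := om_pos; gcongr
  have h5 : 1 - 2 * q * Real.cos (om * u) + q ^ 2 ≤ 1 - 2 * q * Real.cos (om * t) + q ^ 2 := by
    nlinarith
  gcongr

theorem norm_sq_ker (q x t : ℝ) :
    ‖cexp (I * (om * x - om * t)) - q * cexp (I * (om * x))‖ ^ 2 =
      1 - 2 * q * Real.cos (om * t) + q ^ 2 := by
  have h1 : cexp (I * (om * x - om * t)) - q * cexp (I * (om * x)) =
      cexp (I * (om * x)) * (cexp (-(om * t : ℝ) * I) - q) := by
    rw [mul_sub (cexp (I * (om * x))), ← Complex.exp_add]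
    push_cast
    ring_nf
  have h2 : ‖cexp (I * (om * x))‖ = 1 := by
    rw [mul_comm]
    exact_mod_cast Complex.norm_exp_ofReal_mul_I (om * x)
  rw [h1, norm_mul, h2, one_mul, Complex.sq_norm, Complex.normSq_apply]
  have h3 : (cexp (-(om * t : ℝ) * I)) = Real.cos (om * t) - Real.sin (om * t) * I := by
    rw [← Complex.ofReal_neg, Complex.exp_mul_I, ← Complex.ofReal_cos, ← Complex.ofReal_sin,
      Real.cos_neg, Real.sin_neg]
    push_cast
    ring
  rw [h3]
  simp only [Complex.sub_re, Complex.ofReal_re, Complex.mul_re, Complex.I_re, mul_zero,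
    Complex.ofReal_im, Complex.I_im, mul_one, sub_zero, Complex.sub_im, Complex.mul_im,
    Complex.ofReal_im]
  nlinarith [Real.cos_sq_add_sin_sq (om * t)]

theorem poisson {f : ℂ → ℂ} (hf : Differentiable ℂ f) {q : ℝ} (hq0 : 0 ≤ q) (hq1 : q < 1) (x : ℝ) :
    f (q * cexp (I * (om * x))) =
      ∫ t in (-2 : ℝ)..2, (ker q t : ℂ) * f (cexp (I * (om * x - om * t))) := by
  set w : ℂ := q * cexp (I * (om * x)) with hw
  have hnw : ‖w‖ = q := by
    rw [hw, norm_mul, mul_comm I]
    rw [show (om : ℂ) * x = ((om * x : ℝ) : ℂ) by push_cast; ring, Complex.norm_exp_ofReal_mul_I]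
    simp [abs_of_nonneg hq0]
  have hwb : w ∈ ball (0 : ℂ) 1 := by rw [mem_ball_zero_iff, hnw]; exact hq1
  have h1 := DiffContOnCl.circleAverage_poissonKernel_smul' (R := 1) (c := 0) (w := w)
    (hf.diffContOnCl (s := ball 0 1)) hwb
  rw [Real.circleAverage_def] at h1
  set Ψ : ℝ → ℂ := fun θ => ((‖circleMap 0 1 θ - 0‖ ^ 2 - ‖w - 0‖ ^ 2) /
    ‖(circleMap 0 1 θ - 0) - (w - 0)‖ ^ 2) • f (circleMap 0 1 θ) with hΨ
  have hper : Function.Periodic Ψ (2 * π) := by
    intro θ
    simp only [hΨ, periodic_circleMap 0 1 θ]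
  have h2 : ∫ θ in (0 : ℝ)..2 * π, Ψ θ = ∫ θ in (om * x - π)..(om * x + π), Ψ θ := by
    have := hper.intervalIntegral_add_eq 0 (om * x - π)
    rw [zero_add] at this
    rw [this]
    congr 1
    ring
  have h3 := intervalIntegral.integral_comp_sub_mul (a := -2) (b := 2) Ψ om_pos.ne' (om * x)
  have e1 : om * x - om * 2 = om * x - π := by unfold om; ring
  have e2 : om * x - om * (-2) = om * x + π := by unfold om; ring
  rw [e1, e2] at h3
  have h4 : ∫ θ in (om * x - π)..(om * x + π), Ψ θ = om • ∫ t in (-2 : ℝ)..2, Ψ (om * x - om * t) := by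
    rw [h3, smul_smul, mul_inv_cancel₀ om_pos.ne', one_smul]
  have h5 : f w = (1 / 4 : ℝ) • ∫ t in (-2 : ℝ)..2, Ψ (om * x - om * t) := by
    rw [← h1]
    change (2 * π)⁻¹ • ∫ θ in (0 : ℝ)..2 * π, Ψ θ = _
    rw [h2, h4, smul_smul]
    congr 1
    unfold om
    field_simp
    norm_num
  rw [h5, ← intervalIntegral.integral_smul]
  refine intervalIntegral.integral_congr fun t _ => ?_
  have h6 : circleMap 0 1 (om * x - om * t) = cexp (I * (om * x - om * t)) := by
    simp only [circleMap, zero_add, Complex.ofReal_one, one_mul]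
    push_cast
    rw [mul_comm]
  have h7 : ‖cexp (I * (om * x - om * t))‖ = 1 := by
    rw [mul_comm]
    exact_mod_cast Complex.norm_exp_ofReal_mul_I (om * x - om * t)
  simp only [hΨ]
  rw [h6, sub_zero, sub_zero, h7, hnw, hw, norm_sq_ker, smul_smul, Complex.real_smul]
  unfold ker
  push_cast
  ring

theorem integral_ker {q : ℝ} (hq0 : 0 ≤ q) (hq1 : q < 1) : ∫ t in (-2 : ℝ)..2, ker q t = 1 := by
  have h := poisson (f := fun _ => 1) (by fun_prop) hq0 hq1 0
  simp only [mul_one] at h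
  have h2 : ∫ t in (-2 : ℝ)..2, ((ker q t : ℝ) : ℂ) = ((∫ t in (-2 : ℝ)..2, ker q t : ℝ) : ℂ) :=
    intervalIntegral.integral_ofReal
  rw [h2] at h
  exact_mod_cast h.symm


/-! ## the Poisson extension is dominated by the maximal function -/

/-- the boundary modulus on the window `[-4, 4]` -/
noncomputable def bdv (f : ℂ → ℂ) : ℝ → ℝ≥0∞ :=
  (Icc (-4 : ℝ) 4).indicator fun y => ‖f (cexp (I * (om * y)))‖ₑ

theorem measurable_bdv {f : ℂ → ℂ} (hf : Differentiable ℂ f) : Measurable (bdv f) := by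
  refine Measurable.indicator ?_ measurableSet_Icc
  have := hf.continuous
  exact (by fun_prop : Continuous fun y : ℝ => f (cexp (I * (om * y)))).measurable.enorm

theorem poisson_le_MF {f : ℂ → ℂ} (hf : Differentiable ℂ f) {q : ℝ} (hq0 : 0 ≤ q) (hq1 : q < 1)
    {x : ℝ} (hx : |x| ≤ 2) : ‖f (q * cexp (I * (om * x)))‖ₑ ≤ MF (bdv f) x := by
  set K : ℝ → ℝ≥0∞ := (Icc (-2 : ℝ) 2).indicator fun t => ENNReal.ofReal (ker q t) with hK
  have hKm : Measurable K :=
    ((ker_cont hq0 hq1).measurable.ennreal_ofReal).indicator measurableSet_Icc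
  have hKI : ∫⁻ t, K t = 1 := by
    rw [hK, lintegral_indicator measurableSet_Icc, ← ofReal_integral_eq_lintegral_ofReal]
    · rw [integral_Icc_eq_integral_Ioc, ← intervalIntegral.integral_of_le (by norm_num),
        integral_ker hq0 hq1, ENNReal.ofReal_one]
    · exact (ker_cont hq0 hq1).integrableOn_Icc
    · exact Filter.Eventually.of_forall fun t => ker_nonneg hq0 hq1 t
  have h1 := kernel_le_MF hKm (measurable_bdv hf) (fun t u hut => ?_) (fun t ht => ?_) x
  · rw [hKI, mul_one] at h1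
    refine le_trans ?_ h1
    rw [poisson hf hq0 hq1 x, intervalIntegral.integral_of_le (by norm_num)]
    refine (enorm_integral_le_lintegral_enorm _).trans ?_
    rw [← lintegral_indicator measurableSet_Ioc]
    refine lintegral_mono fun t => ?_
    simp only [indicator]
    split_ifs with h
    · have h2 : t ∈ Icc (-2 : ℝ) 2 := ⟨h.1.le, h.2⟩
      have h3 : x - t ∈ Icc (-4 : ℝ) 4 := by
        have := abs_le.1 hx
        exact ⟨by linarith [h2.2], by linarith [h2.1]⟩
      have h4 : K t = ENNReal.ofReal (ker q t) := by rw [hK]; exact indicator_of_mem h2 _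
      have h5 : bdv f (x - t) = ‖f (cexp (I * (om * x - om * t)))‖ₑ := by
        rw [bdv, indicator_of_mem h3]
        congr 3
        push_cast
        ring
      rw [h4, h5, enorm_mul]
      gcongr
      rw [← ofReal_norm, Complex.norm_real, Real.norm_eq_abs,
        abs_of_nonneg (ker_nonneg hq0 hq1 t)]
    · simp
  · simp only [hK, indicator]
    split_ifs with h h'
    · exact ENNReal.ofReal_le_ofReal (ker_anti hq0 hq1 (abs_le.2 h) hut)
    · exact absurd (abs_le.1 (hut.trans (abs_le.2 h))) h'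
    · simp
    · simp
  · rw [hK]
    refine indicator_of_notMem (fun h => ?_) _
    exact absurd (abs_le.2 h) (not_le.2 ht)

/-- weak type: the set where the maximal function of the boundary values exceeds `ε` -/
theorem weak_two {f : ℂ → ℂ} (hf : Differentiable ℂ f) {ε : ℝ} (hε : 0 < ε) :
    volume {x : ℝ | ENNReal.ofReal ε < MF (bdv f) x} ≤
      ENNReal.ofReal (32 / ε ^ 2) * ∫⁻ y in Icc (-4 : ℝ) 4, ‖f (cexp (I * (om * y)))‖ₑ ^ (2 : ℝ) := by
  have h1 := strong_MF (p := 2) (by norm_num) (measurable_bdv hf)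
  have h2 : ∫⁻ x, bdv f x ^ (2 : ℝ) = ∫⁻ y in Icc (-4 : ℝ) 4, ‖f (cexp (I * (om * y)))‖ₑ ^ (2 : ℝ) := by
    rw [← lintegral_indicator measurableSet_Icc]
    refine lintegral_congr fun y => ?_
    simp only [bdv, indicator]
    split_ifs
    · rfl
    · simp
  rw [h2] at h1
  have h3 : ENNReal.ofReal (ε ^ 2) * volume {x : ℝ | ENNReal.ofReal ε < MF (bdv f) x} ≤
      ∫⁻ x, MF (bdv f) x ^ (2 : ℝ) := by
    have h4 := mul_meas_ge_le_lintegral₀ (μ := volume) (f := fun x => MF (bdv f) x ^ (2 : ℝ))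
      ((measurable_MF _).pow_const _).aemeasurable (ENNReal.ofReal (ε ^ 2))
    refine le_trans ?_ h4
    refine mul_le_mul_right (measure_mono fun x hx => ?_) _
    simp only [mem_ofPred_eq] at hx ⊢
    have : ENNReal.ofReal (ε ^ 2) = ENNReal.ofReal ε ^ (2 : ℝ) := by
      rw [ENNReal.ofReal_rpow_of_pos hε]
      norm_num
    rw [this]
    gcongr
  have h5 := h3.trans h1
  have h6 : ENNReal.ofReal (32 / ε ^ 2) = (ENNReal.ofReal (ε ^ 2))⁻¹ *
      ENNReal.ofReal (8 * 2 * 2 ^ ((2 : ℝ) - 1) / (2 - 1)) := by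
    rw [← ENNReal.ofReal_inv_of_pos (by positivity), ← ENNReal.ofReal_mul (by positivity)]
    congr 1
    norm_num
    ring
  have h7 : ENNReal.ofReal (ε ^ 2) ≠ 0 := by
    have : 0 < ε ^ 2 := by positivity
    simpa using hε.ne'
  rw [h6, mul_assoc]
  calc volume {x : ℝ | ENNReal.ofReal ε < MF (bdv f) x}
      = (ENNReal.ofReal (ε ^ 2))⁻¹ * (ENNReal.ofReal (ε ^ 2) *
        volume {x : ℝ | ENNReal.ofReal ε < MF (bdv f) x}) := by
        rw [← mul_assoc, ENNReal.inv_mul_cancel h7 ENNReal.ofReal_ne_top, one_mul]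
    _ ≤ _ := mul_le_mul_right h5 _


/-! ## Parseval for trigonometric polynomials of period 4 (two periods) -/

theorem int_exp (k : ℤ) : ∫ y in (-4 : ℝ)..4, cexp (I * (om * y)) ^ k = if k = 0 then 8 else 0 := by
  have h0 : ∀ y : ℝ, cexp (I * (om * y)) ^ k = cexp ((I * om * k) * y) := by
    intro y
    rw [← Complex.exp_int_mul]
    congr 1
    ring
  simp only [h0]
  split_ifs with hk
  · subst hk
    simp only [Int.cast_zero, mul_zero, zero_mul, Complex.exp_zero, intervalIntegral.integral_const]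
    norm_num
  · have hc : (I * om * k : ℂ) ≠ 0 := by
      have h1 : (om : ℂ) ≠ 0 := by exact_mod_cast om_pos.ne'
      have h2 : (k : ℂ) ≠ 0 := by exact_mod_cast hk
      exact mul_ne_zero (mul_ne_zero I_ne_zero h1) h2
    rw [integral_exp_mul_complex hc]
    have h3 : cexp (I * om * k * (4 : ℝ)) = 1 := by
      rw [← Complex.exp_int_mul_two_pi_mul_I k]
      congr 1
      unfold om
      push_cast
      ring
    have h4 : cexp (I * om * k * ((-4 : ℝ) : ℂ)) = 1 := by
      rw [← Complex.exp_int_mul_two_pi_mul_I (-k)]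
      congr 1
      unfold om
      push_cast
      ring
    rw [h3, h4, sub_self, zero_div]

theorem norm_e (y : ℝ) : ‖cexp (I * (om * y))‖ = 1 := by
  rw [mul_comm]
  exact_mod_cast Complex.norm_exp_ofReal_mul_I (om * y)

theorem conj_e (y : ℝ) (m : ℕ) : (starRingEnd ℂ) (cexp (I * (om * y)) ^ m) =
    cexp (I * (om * y)) ^ (-(m : ℤ)) := by
  rw [zpow_neg, zpow_natCast]
  have h : ‖cexp (I * (om * y)) ^ m‖ = 1 := by rw [norm_pow, norm_e, one_pow]
  exact (Complex.inv_eq_conj h).symm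

theorem parseval (b : ℕ → ℂ) (N : ℕ) :
    ∫ y in (-4 : ℝ)..4, ‖∑ n ∈ Finset.range N, b n * cexp (I * (om * y)) ^ n‖ ^ 2 =
      8 * ∑ n ∈ Finset.range N, ‖b n‖ ^ 2 := by
  have h1 : ∀ y : ℝ, ((‖∑ n ∈ Finset.range N, b n * cexp (I * (om * y)) ^ n‖ ^ 2 : ℝ) : ℂ) =
      ∑ n ∈ Finset.range N, ∑ m ∈ Finset.range N,
        (b n * (starRingEnd ℂ) (b m)) * cexp (I * (om * y)) ^ ((n : ℤ) - m) := by
    intro y
    rw [← Complex.normSq_eq_norm_sq, ← Complex.mul_conj, map_sum, Finset.sum_mul_sum]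
    refine Finset.sum_congr rfl fun n _ => Finset.sum_congr rfl fun m _ => ?_
    rw [map_mul, conj_e, sub_eq_add_neg, zpow_add₀ (Complex.exp_ne_zero _), zpow_natCast]
    ring
  have h2 : ((∫ y in (-4 : ℝ)..4, ‖∑ n ∈ Finset.range N, b n * cexp (I * (om * y)) ^ n‖ ^ 2 : ℝ) : ℂ)
      = ((8 * ∑ n ∈ Finset.range N, ‖b n‖ ^ 2 : ℝ) : ℂ) := by
    rw [← intervalIntegral.integral_ofReal]
    simp only [h1]
    have hc : ∀ k : ℤ, Continuous fun y : ℝ => cexp (I * (om * y)) ^ k := fun k =>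
      Continuous.zpow₀ (by fun_prop) k fun y => Or.inl (Complex.exp_ne_zero _)
    rw [intervalIntegral.integral_finsetSum]
    · have h3 : ∀ n ∈ Finset.range N, (∫ y in (-4 : ℝ)..4, ∑ m ∈ Finset.range N,
          (b n * (starRingEnd ℂ) (b m)) * cexp (I * (om * y)) ^ ((n : ℤ) - m)) =
          8 * ((‖b n‖ ^ 2 : ℝ) : ℂ) := by
        intro n hn
        rw [intervalIntegral.integral_finsetSum]
        · rw [Finset.sum_eq_single n]
          · rw [intervalIntegral.integral_const_mul, int_exp, sub_self, if_pos rfl, Complex.mul_conj,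
              Complex.normSq_eq_norm_sq]
            ring
          · intro m _ hmn
            rw [intervalIntegral.integral_const_mul, int_exp, if_neg, mul_zero]
            intro h
            exact hmn (by omega)
          · intro h
            exact absurd hn h
        · intro m _
          exact (continuous_const.mul (hc _)).intervalIntegrable _ _
      rw [Finset.sum_congr rfl h3, ← Finset.mul_sum]
      push_cast
      rfl
    · intro n _
      exact (continuous_finsetSum _ fun m _ => continuous_const.mul (hc _)).intervalIntegrable _ _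
  exact_mod_cast h2

/-! ## the radial estimate for polynomials -/

/-- partial sums -/
noncomputable def Hp (a : ℕ → ℂ) (N : ℕ) (z : ℂ) : ℂ :=
  ∑ n ∈ Finset.range N, a n * cexp (I * (om * n * z))

/-- the Hardy function with coefficients `a` (period 4, upper half plane) -/
noncomputable def Hs (a : ℕ → ℂ) (z : ℂ) : ℂ := ∑' n, a n * cexp (I * (om * n * z))

/-- the derivative polynomial -/
noncomputable def dp (a : ℕ → ℂ) (N : ℕ) (w : ℂ) : ℂ :=
  ∑ n ∈ Finset.range N, (a n * (om * n)) * w ^ n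

theorem diff_dp (a : ℕ → ℂ) (N : ℕ) : Differentiable ℂ (dp a N) := by
  unfold dp
  fun_prop

theorem hasDeriv_Hp (a : ℕ → ℂ) (N : ℕ) (x s : ℝ) :
    HasDerivAt (fun s : ℝ => Hp a N (x + s * I))
      (-dp a N ((Real.exp (-om * s) : ℝ) * cexp (I * (om * x)))) s := by
  unfold Hp dp
  rw [← Finset.sum_neg_distrib]
  refine HasDerivAt.fun_sum fun n _ => ?_
  have h1 : HasDerivAt (fun s : ℝ => I * (om * n * (x + s * I))) (I * (om * n * I)) s := by
    have h2 : HasDerivAt (fun s : ℝ => ((s : ℝ) : ℂ)) 1 s := Complex.ofRealCLM.hasDerivAt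
    have h3 := (((h2.mul_const I).const_add (x : ℂ)).const_mul ((om : ℂ) * n)).const_mul I
    simpa using h3
  have h2 := (h1.cexp).const_mul (a n)
  refine h2.congr_deriv ?_
  have h3 : cexp (I * (om * n * (x + s * I))) =
      (((Real.exp (-om * s) : ℝ) : ℂ) * cexp (I * (om * x))) ^ n := by
    rw [Complex.ofReal_exp, ← Complex.exp_add, ← Complex.exp_nat_mul]
    congr 1
    push_cast
    linear_combination (-(om : ℂ) * n * s) * (-Complex.I_mul_I) 
  rw [h3]
  linear_combination (a n * om * n * (((Real.exp (-om * s) : ℝ) : ℂ) * cexp (I * (om * x))) ^ n) *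
    Complex.I_mul_I

theorem radial_Hp (a : ℕ → ℂ) (N : ℕ) {ε : ℝ} (hε : 0 < ε) {x : ℝ} (hx : |x| ≤ 2)
    (hM : MF (bdv (dp a N)) x ≤ ENNReal.ofReal ε) {r : ℝ} (hr : 0 < r) :
    ‖Hp a N (x + r * I) - Hp a N x‖ ≤ ε * r := by
  have h1 : ∀ s ∈ uIoc (0 : ℝ) r,
      ‖-dp a N ((Real.exp (-om * s) : ℝ) * cexp (I * (om * x)))‖ ≤ ε := by
    intro s hs
    rw [uIoc_of_le hr.le] at hs
    rw [norm_neg]
    have h2 := poisson_le_MF (diff_dp a N) (Real.exp_pos (-om * s)).le
      (by rw [← Real.exp_zero]; exact Real.exp_lt_exp.2 (by have := om_pos; nlinarith [hs.1])) hx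
    have h3 := h2.trans hM
    rw [← ofReal_norm] at h3
    exact (ENNReal.ofReal_le_ofReal_iff hε.le).1 h3
  have hcont : Continuous fun s : ℝ =>
      -dp a N ((Real.exp (-om * s) : ℝ) * cexp (I * (om * x))) := by
    have := (diff_dp a N).continuous
    fun_prop
  have h4 := intervalIntegral.integral_eq_sub_of_hasDerivAt (a := 0) (b := r)
    (fun s _ => hasDeriv_Hp a N x s) (hcont.intervalIntegrable _ _)
  have h5 := intervalIntegral.norm_integral_le_of_norm_le_const h1
  rw [h4, sub_zero, abs_of_pos hr] at h5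
  simpa using h5

theorem weak_Hp (a : ℕ → ℂ) (N : ℕ) {ε : ℝ} (hε : 0 < ε) :
    volume {x : ℝ | |x| ≤ 2 ∧ ∃ r > 0, ε * r < ‖Hp a N (x + (r : ℝ) * I) - Hp a N x‖} ≤
      ENNReal.ofReal (64 * π ^ 2 * (∑ n ∈ Finset.range N, (n : ℝ) ^ 2 * ‖a n‖ ^ 2) / ε ^ 2) := by
  have h1 : {x : ℝ | |x| ≤ 2 ∧ ∃ r > 0, ε * r < ‖Hp a N (x + (r : ℝ) * I) - Hp a N x‖} ⊆
      {x : ℝ | ENNReal.ofReal ε < MF (bdv (dp a N)) x} := by
    rintro x ⟨hx, r, hr, h⟩
    by_contra hcon
    exact absurd (radial_Hp a N hε hx (not_lt.1 hcon) hr) (not_le.2 h)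
  refine (measure_mono h1).trans ((weak_two (diff_dp a N) hε).trans ?_)
  have h2 : ∫⁻ y in Icc (-4 : ℝ) 4, ‖dp a N (cexp (I * (om * y)))‖ₑ ^ (2 : ℝ) =
      ENNReal.ofReal (8 * ∑ n ∈ Finset.range N, ‖a n * (om * n)‖ ^ 2) := by
    rw [← parseval, intervalIntegral.integral_of_le (by norm_num),
      ← integral_Icc_eq_integral_Ioc, ofReal_integral_eq_lintegral_ofReal]
    · refine lintegral_congr fun y => ?_
      rw [← ofReal_norm, ENNReal.ofReal_rpow_of_nonneg (norm_nonneg _) (by norm_num)]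
      norm_num
      rfl
    · refine Continuous.integrableOn_Icc ?_
      fun_prop
    · exact Filter.Eventually.of_forall fun y => by positivity
  rw [h2, ← ENNReal.ofReal_mul (by positivity)]
  refine ENNReal.ofReal_le_ofReal (le_of_eq ?_)
  have h3 : ∑ n ∈ Finset.range N, ‖a n * (om * n)‖ ^ 2 =
      om ^ 2 * ∑ n ∈ Finset.range N, (n : ℝ) ^ 2 * ‖a n‖ ^ 2 := by
    rw [Finset.mul_sum]
    refine Finset.sum_congr rfl fun n _ => ?_
    rw [norm_mul, norm_mul, Complex.norm_real, Complex.norm_natCast, Real.norm_eq_abs,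
      abs_of_pos om_pos]
    ring
  rw [h3]
  unfold om
  field_simp
  ring

/-! ## infinite sums -/

theorem summable_norm {a : ℕ → ℂ} (ha : Summable fun n : ℕ => (n : ℝ) ^ 2 * ‖a n‖ ^ 2) :
    Summable fun n => ‖a n‖ := by
  have h1 : Summable fun n : ℕ => (n : ℝ) ^ 2 * ‖a n‖ ^ 2 + 1 / (n : ℝ) ^ 2 :=
    ha.add (Real.summable_one_div_nat_pow.2 (by norm_num))
  refine (summable_nat_add_iff 1).1 ?_
  refine Summable.of_nonneg_of_le (fun n => norm_nonneg _) (fun n => ?_)
    ((summable_nat_add_iff 1).2 h1)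
  have hn : (0 : ℝ) < ((n + 1 : ℕ) : ℝ) := by positivity
  have h2 : 0 ≤ (((n + 1 : ℕ) : ℝ) * ‖a (n + 1)‖ - 1 / ((n + 1 : ℕ) : ℝ)) ^ 2 := sq_nonneg _
  have h3 : (((n + 1 : ℕ) : ℝ) * ‖a (n + 1)‖ - 1 / ((n + 1 : ℕ) : ℝ)) ^ 2 =
      ((n + 1 : ℕ) : ℝ) ^ 2 * ‖a (n + 1)‖ ^ 2 + 1 / ((n + 1 : ℕ) : ℝ) ^ 2 - 2 * ‖a (n + 1)‖ := by
    field_simp
    ring
  have h4 := norm_nonneg (a (n + 1))
  linarith

theorem norm_term_le (a : ℕ → ℂ) (n : ℕ) {z : ℂ} (hz : 0 ≤ z.im) :
    ‖a n * cexp (I * (om * n * z))‖ ≤ ‖a n‖ := by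
  rw [norm_mul, Complex.norm_exp]
  have h1 : (I * (om * n * z)).re = -(om * n * z.im) := by
    simp [Complex.mul_re, Complex.mul_im]
  rw [h1]
  have h2 : Real.exp (-(om * n * z.im)) ≤ 1 := by
    rw [Real.exp_le_one_iff]
    have := om_pos
    have : 0 ≤ om * n * z.im := by positivity
    linarith
  calc ‖a n‖ * Real.exp (-(om * n * z.im)) ≤ ‖a n‖ * 1 := by gcongr
    _ = ‖a n‖ := mul_one _

theorem summable_Hs {a : ℕ → ℂ} (ha : Summable fun n => ‖a n‖) {z : ℂ} (hz : 0 ≤ z.im) :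
    Summable fun n : ℕ => a n * cexp (I * (om * n * z)) :=
  Summable.of_norm_bounded ha fun n => norm_term_le a n hz

theorem tendsto_Hp {a : ℕ → ℂ} (ha : Summable fun n => ‖a n‖) {z : ℂ} (hz : 0 ≤ z.im) :
    Filter.Tendsto (fun N => Hp a N z) Filter.atTop (nhds (Hs a z)) :=
  (summable_Hs ha hz).hasSum.tendsto_sum_nat

/-- **Row D3 (radial maximal estimate).** -/
theorem radial_max {a : ℕ → ℂ} (ha : Summable fun n : ℕ => (n : ℝ) ^ 2 * ‖a n‖ ^ 2) {ε : ℝ}
    (hε : 0 < ε) :
    volume {x : ℝ | |x| ≤ 2 ∧ ∃ r > 0, ε * r < ‖Hs a (x + (r : ℝ) * I) - Hs a x‖} ≤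
      ENNReal.ofReal (64 * π ^ 2 * (∑' n : ℕ, (n : ℝ) ^ 2 * ‖a n‖ ^ 2) / ε ^ 2) := by
  set E : ℕ → Set ℝ := fun N =>
    {x : ℝ | |x| ≤ 2 ∧ ∃ r > 0, ε * r < ‖Hp a N (x + (r : ℝ) * I) - Hp a N x‖} with hE
  have hsn := summable_norm ha
  have h1 : {x : ℝ | |x| ≤ 2 ∧ ∃ r > 0, ε * r < ‖Hs a (x + (r : ℝ) * I) - Hs a x‖} ⊆
      ⋃ m : ℕ, ⋂ N ≥ m, E N := by
    rintro x ⟨hx, r, hr, h⟩
    have h2 : Filter.Tendsto (fun N => ‖Hp a N (x + (r : ℝ) * I) - Hp a N x‖) Filter.atTop
        (nhds ‖Hs a (x + (r : ℝ) * I) - Hs a x‖) :=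
      ((tendsto_Hp hsn (by simpa using hr.le)).sub (tendsto_Hp hsn (by simp))).norm
    obtain ⟨m, hm⟩ := Filter.eventually_atTop.1 (h2.eventually (lt_mem_nhds h))
    simp only [mem_iUnion, mem_iInter]
    exact ⟨m, fun N hN => ⟨hx, r, hr, hm N hN⟩⟩
  refine (measure_mono h1).trans ?_
  have hmono : Monotone fun m : ℕ => ⋂ N ≥ m, E N := by
    intro m m' hmm
    refine fun x hx => ?_
    simp only [mem_iInter] at hx ⊢
    exact fun N hN => hx N (le_trans hmm hN)
  rw [hmono.measure_iUnion]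
  refine iSup_le fun m => ?_
  have h3 : (⋂ N ≥ m, E N) ⊆ E m := by
    intro x hx
    simp only [mem_iInter] at hx
    exact hx m le_rfl
  refine (measure_mono h3).trans ((weak_Hp a m hε).trans ?_)
  refine ENNReal.ofReal_le_ofReal ?_
  gcongr
  exact ha.sum_le_tsum _ fun n _ => by positivity

end Vale.Agent.P097.H109
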