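import Vale.Agent.P097.H264.Wnd
import Vale.Agent.P097.H264.Saw2

/-!
Row A4.4-H1: from the local world and a compact set of feet with uniform non-tangential limits to
the sawtooth: `2 i (al - F ∘ th)` is a `LogOm`, `F ∘ th` is bounded, `p` and the incidence at
the points of a compact set are `≤ M exp |Im al|`.
-/

open Complex Metric Filter Topology Set

namespace Vale.Agent.P097.H109.Saw

open Vale.Agent.P097.TC Vale.Agent.P097.H264

variable {Λ b : ℝ} {F q : ℂ → ℂ} {e₀ : ℝ × ℝ} {ρ k : ℝ} {al p th : ℂ × ℂ → ℂ}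

/-- finite positions which are not R2 points -/
def Gd (b : ℝ) (F : ℂ → ℂ) : Set ℂ := {x | x ∈ Sb b ∧ deriv F x ≠ 0}

theorem isOpen_Gd (C : Cv Λ b F q) : IsOpen (Gd b F) := by
  have h1 : ContinuousOn (deriv F) (Sb b) :=
    (C.dF.deriv (isOpen_Sb b)).continuousOn
  exact h1.isOpen_inter_preimage (isOpen_Sb b) (t := {0}ᶜ) isOpen_compl_singleton

theorem K1_sub_K2 {k : ℝ} (h0 : 0 < k) (h1 : k < 1) : K1 k ⊆ K2 k := by
  intro y hy
  have h2 : |y.2| < k * y.1 := hy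
  rw [abs_lt] at h2
  have h3 : 0 < y.1 := by
    by_contra hn
    push Not at hn
    nlinarith [h2.1, h2.2]
  constructor
  · nlinarith [h2.1, h2.2, mul_pos h0 h3]
  · nlinarith [h2.1]

theorem TB_K {K K' : Set (ℝ × ℝ)} (h : K ⊆ K') {e₀ : ℝ × ℝ} {ρ : ℝ} :
    TB e₀ ρ K ⊆ TB e₀ ρ K' := fun _ hz => ⟨hz.1, hz.2.1, h hz.2.2⟩

theorem norm_cos_le (w : ℂ) : ‖Complex.cos w‖ ≤ Real.exp |w.im| := by
  rw [Complex.cos]
  have h1 : ‖Complex.exp (w * I)‖ ≤ Real.exp |w.im| := by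
    rw [Complex.norm_exp]
    refine Real.exp_le_exp.2 ?_
    simp only [mul_re, I_re, mul_zero, I_im, mul_one, zero_sub]
    exact neg_le_abs _
  have h2 : ‖Complex.exp (-w * I)‖ ≤ Real.exp |w.im| := by
    rw [Complex.norm_exp]
    refine Real.exp_le_exp.2 ?_
    simp only [mul_re, neg_re, I_re, mul_zero, neg_im, I_im, mul_one, zero_sub, neg_neg]
    exact le_abs_self _
  rw [norm_div, Complex.norm_ofNat, div_le_iff₀ (by norm_num)]
  refine (norm_add_le _ _).trans ?_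
  linarith

theorem norm_sin_le (w : ℂ) : ‖Complex.sin w‖ ≤ Real.exp |w.im| := by
  rw [Complex.sin]
  have h1 : ‖Complex.exp (w * I)‖ ≤ Real.exp |w.im| := by
    rw [Complex.norm_exp]
    refine Real.exp_le_exp.2 ?_
    simp only [mul_re, I_re, mul_zero, I_im, mul_one, zero_sub]
    exact neg_le_abs _
  have h2 : ‖Complex.exp (-w * I)‖ ≤ Real.exp |w.im| := by
    rw [Complex.norm_exp]
    refine Real.exp_le_exp.2 ?_
    simp only [mul_re, neg_re, I_re, mul_zero, neg_im, I_im, mul_one, zero_sub, neg_neg]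
    exact le_abs_self _
  rw [norm_div, norm_mul, Complex.norm_I, mul_one, Complex.norm_ofNat,
    div_le_iff₀ (by norm_num)]
  refine (norm_sub_le _ _).trans ?_
  linarith

/-- `exp (2 i w) = 1` only at the zeros of the sine -/
theorem sin_zero_of_exp {w : ℂ} (h : Complex.exp (2 * I * w) = 1) : Complex.sin w = 0 := by
  rw [Complex.exp_eq_one_iff] at h
  obtain ⟨n, hn⟩ := h
  rw [Complex.sin_eq_zero_iff]
  refine ⟨n, ?_⟩
  have h2 : (2 * I : ℂ) ≠ 0 := by simp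
  refine mul_left_cancel₀ h2 ?_
  rw [hn]; ring

/-- on a compact set of non-R2 positions everything is bounded -/
theorem bounds (C : Cv Λ b F q) {K : Set ℂ} (hK : IsCompact K) (hKG : K ⊆ Gd b F) :
    ∃ M : ℝ, 1 ≤ M ∧ (∀ x ∈ K, ‖F x‖ ≤ M) ∧
      ∀ y ∈ K, ∀ a p₀ : ℂ, Mi F q a p₀ y = 0 →
        ‖p₀‖ ≤ M * Real.exp |a.im| ∧ ∀ x ∈ K, ‖Mi F q a p₀ x‖ ≤ M * Real.exp |a.im| := by
  have hS : K ⊆ Sb b := fun x hx => (hKG hx).1
  have cF : ContinuousOn F K := C.dF.continuousOn.mono hS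
  have cq : ContinuousOn q K := C.dq.continuousOn.mono hS
  have cF' : ContinuousOn (deriv F) K := ((C.dF.deriv (isOpen_Sb b)).continuousOn).mono hS
  have cq' : ContinuousOn (deriv q) K := ((C.dq.deriv (isOpen_Sb b)).continuousOn).mono hS
  have cd : ContinuousOn (fun x => deriv q x / deriv F x) K := cq'.div cF' fun x hx => (hKG hx).2
  obtain ⟨m0, h0⟩ := hK.exists_bound_of_continuousOn cF
  obtain ⟨m1, h1⟩ := hK.exists_bound_of_continuousOn cq
  obtain ⟨m2, h2⟩ := hK.exists_bound_of_continuousOn cd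
  obtain ⟨m3, h3⟩ := hK.exists_bound_of_continuousOn cF'
  obtain ⟨m4, h4⟩ := hK.exists_bound_of_continuousOn cq'
  set n0 := |m0| with hn0
  set n1 := |m1| with hn1
  set n2 := |m2| with hn2
  set n3 := |m3| with hn3
  set n4 := |m4| with hn4
  have p0 : 0 ≤ n0 := abs_nonneg _
  have p1 : 0 ≤ n1 := abs_nonneg _
  have p2 : 0 ≤ n2 := abs_nonneg _
  have p3 : 0 ≤ n3 := abs_nonneg _
  have p4 : 0 ≤ n4 := abs_nonneg _
  set E := Real.exp n0 with hE
  have hE0 : 0 < E := Real.exp_pos _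
  set P := (n1 + n2) * E with hP
  have hP0 : 0 ≤ P := by positivity
  set Q := n3 * (n1 * E + P) + n4 * E with hQ
  have hQ0 : 0 ≤ Q := by positivity
  have key : ∀ x ∈ K, ∀ a : ℂ, ‖Complex.cos (a - F x)‖ ≤ E * Real.exp |a.im| ∧
      ‖Complex.sin (a - F x)‖ ≤ E * Real.exp |a.im| := by
    intro x hx a
    have h5 : |(a - F x).im| ≤ n0 + |a.im| := by
      rw [Complex.sub_im]
      have h6 : |(F x).im| ≤ n0 := ((Complex.abs_im_le_norm _).trans (h0 x hx)).trans (le_abs_self _)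
      have h7 := abs_sub a.im (F x).im
      linarith
    have h8 : Real.exp |(a - F x).im| ≤ E * Real.exp |a.im| := by
      rw [hE, ← Real.exp_add]
      exact Real.exp_le_exp.2 h5
    exact ⟨(norm_cos_le _).trans h8, (norm_sin_le _).trans h8⟩
  refine ⟨1 + n0 + P + Q, by linarith, fun x hx => ?_, fun y hy a p₀ hm => ?_⟩
  · have := (h0 x hx).trans (le_abs_self m0)
    linarith
  set X := Real.exp |a.im| with hX
  have hX0 : 0 < X := Real.exp_pos _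
  have hFy := (hKG hy).2
  have e1 : p₀ = q y * Complex.cos (a - F y) + deriv q y / deriv F y * Complex.sin (a - F y) := by
    have hm' := hm
    unfold Mi at hm'
    field_simp
    linear_combination -hm'
  obtain ⟨c1, s1⟩ := key y hy a
  have hp : ‖p₀‖ ≤ P * X := by
    rw [e1]
    have a1 : ‖q y * Complex.cos (a - F y)‖ ≤ n1 * (E * X) := by
      rw [norm_mul]
      exact mul_le_mul ((h1 y hy).trans (le_abs_self _)) c1 (norm_nonneg _) p1
    have a2 : ‖deriv q y / deriv F y * Complex.sin (a - F y)‖ ≤ n2 * (E * X) := by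
      rw [norm_mul]
      exact mul_le_mul ((h2 y hy).trans (le_abs_self _)) s1 (norm_nonneg _) p2
    have := norm_add_le (q y * Complex.cos (a - F y)) (deriv q y / deriv F y * Complex.sin (a - F y))
    rw [hP]
    linarith
  refine ⟨?_, fun x hx => ?_⟩
  · have : 0 ≤ (1 + n0 + Q) * X := by positivity
    linarith
  obtain ⟨c2, s2⟩ := key x hx a
  have hmx : ‖Mi F q a p₀ x‖ ≤ Q * X := by
    unfold Mi
    have a1 : ‖q x * Complex.cos (a - F x)‖ ≤ n1 * (E * X) := by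
      rw [norm_mul]
      exact mul_le_mul ((h1 x hx).trans (le_abs_self _)) c2 (norm_nonneg _) p1
    have a2 : ‖q x * Complex.cos (a - F x) - p₀‖ ≤ n1 * (E * X) + P * X :=
      (norm_sub_le _ _).trans (add_le_add a1 hp)
    have a3 : ‖deriv F x * (q x * Complex.cos (a - F x) - p₀)‖ ≤ n3 * (n1 * (E * X) + P * X) := by
      rw [norm_mul]
      exact mul_le_mul ((h3 x hx).trans (le_abs_self _)) a2 (norm_nonneg _) p3
    have a4 : ‖deriv q x * Complex.sin (a - F x)‖ ≤ n4 * (E * X) := by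
      rw [norm_mul]
      exact mul_le_mul ((h4 x hx).trans (le_abs_self _)) s2 (norm_nonneg _) p4
    refine (norm_add_le _ _).trans ((add_le_add a3 a4).trans (le_of_eq ?_))
    rw [hQ]; ring
  have : 0 ≤ (1 + n0 + P) * X := by positivity
  linarith

/-- a compact neighbourhood of the limits -/
theorem exists_K (C : Cv Λ b F q) {A : Set (ℝ × ℝ)} (hA : IsCompact A) {fs : ℝ × ℝ → ℂ}
    (hfs : ContinuousOn fs A) (hfm : ∀ e ∈ A, fs e ∈ Gd b F) :
    ∃ K : Set ℂ, IsCompact K ∧ K ⊆ Gd b F ∧ ∃ δ > 0, ∀ e ∈ A, closedBall (fs e) δ ⊆ K := by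
  have h1 : IsCompact (fs '' A) := hA.image_of_continuousOn hfs
  have h2 : fs '' A ⊆ Gd b F := by
    rintro _ ⟨e, he, rfl⟩
    exact hfm e he
  obtain ⟨δ, hδ, h3⟩ := h1.exists_cthickening_subset_open (isOpen_Gd C) h2
  refine ⟨cthickening δ (fs '' A), h1.cthickening, h3, δ, hδ, fun e he x hx => ?_⟩
  exact closedBall_subset_cthickening (mem_image_of_mem fs he) δ hx

/-- the sawtooth is in the local tube -/
theorem saw_TB {A : Set (ℝ × ℝ)} (hA : IsCompact A) (hAb : A ⊆ ball e₀ ρ) (hρ : 0 < ρ)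
    {C : ℝ} (hC : 0 < C) : ∃ h > 0, h ≤ ρ ∧ ∀ kap : ℝ, 0 < kap → kap < 1 → ∀ h' ≤ h,
      Sw kap C h' A ⊆ TB e₀ ρ (K1 kap) := by
  obtain ⟨d, hd, h1⟩ := hA.exists_thickening_subset_open isOpen_ball hAb
  refine ⟨min ρ (d / C), by positivity, min_le_left _ _, fun kap hk0 hk1 h' hh z hz => ?_⟩
  obtain ⟨z1, z2, z3, e, he, z4⟩ := hz
  have z5 : z.1.im < ρ := z2.trans_le (hh.trans (min_le_left _ _))
  have z6 : z.1.im < d / C := z2.trans_le (hh.trans (min_le_right _ _))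
  refine ⟨h1 ?_, ?_, z3⟩
  · rw [mem_thickening_iff]
    refine ⟨e, he, z4.trans ?_⟩
    rw [lt_div_iff₀ hC] at z6
    linarith
  · show ‖(z.1.im, z.2.im)‖ < ρ
    rw [Prod.norm_def]
    simp only [Real.norm_eq_abs]
    refine max_lt (by rwa [abs_of_pos z1]) (z3.trans ?_)
    nlinarith

/-- **row A4.4-H1** -/
theorem h1 (L : LW Λ b F q e₀ ρ k al p th) {A : Set (ℝ × ℝ)} (hA : IsCompact A)
    (hAb : A ⊆ ball e₀ ρ) {fs : ℝ × ℝ → ℂ} (hfs : ContinuousOn fs A)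
    (hfm : ∀ e ∈ A, fs e ∈ Gd b F)
    (unif : ∀ k₁ < k, ∀ C > 0, ∀ ε > 0, ∃ δ > 0, ∀ e ∈ A, ∀ z ∈ TB e₀ ρ (K1 k₁),
      ‖ft z - e‖ ≤ C * z.1.im → z.1.im < δ → ‖th z - fs e‖ ≤ ε) :
    ∃ (K : Set ℂ) (δ M : ℝ), IsCompact K ∧ K ⊆ Gd b F ∧ 0 < δ ∧
      (∀ e ∈ A, closedBall (fs e) δ ⊆ K) ∧ 1 ≤ M ∧
      ∀ kap : ℝ, 0 < kap → kap < k → ∀ C > 0, ∀ ε > 0, ∃ h > 0,
        Sw kap C h A ⊆ TB e₀ ρ (K1 kap) ∧ Sw kap C h A ⊆ TB e₀ ρ (K1 k) ∧
        Sw kap C h A ⊆ TB e₀ ρ (K2 k) ∧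
        (∀ z ∈ Sw kap C h A, ∀ e ∈ A, dist (ft z) e ≤ C * z.1.im → ‖th z - fs e‖ ≤ ε) ∧
        (∀ z ∈ Sw kap C h A, th z ∈ K ∧ ‖F (th z)‖ ≤ M ∧ ‖p z‖ ≤ M * Real.exp |(al z).im| ∧
          ∀ x ∈ K, ‖Mi F q (al z) (p z) x‖ ≤ M * Real.exp |(al z).im|) ∧
        LogOm (Sw kap C h A) (fun z => 2 * I * (al z - F (th z))) := by
  obtain ⟨K, hK, hKG, δ, hδ, hKb⟩ := exists_K L.cv hA hfs hfm
  obtain ⟨M, hM1, hMF, hMp⟩ := bounds L.cv hK hKG
  refine ⟨K, δ, M, hK, hKG, hδ, hKb, hM1, fun kap hk0 hkk C hC ε hε => ?_⟩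
  obtain ⟨h₀, hh0, -, hin⟩ := saw_TB hA hAb L.ρ0 hC
  obtain ⟨d, hd, hun⟩ := unif kap hkk C hC (min ε δ) (lt_min hε hδ)
  set h := min h₀ d with hh
  have hpos : 0 < h := lt_min hh0 hd
  have i1 : Sw kap C h A ⊆ TB e₀ ρ (K1 kap) := hin kap hk0 (hkk.trans L.k1) h (min_le_left _ _)
  have i2 : Sw kap C h A ⊆ TB e₀ ρ (K1 k) := i1.trans (TB_K (K1_mono hk0 hkk.le))
  have i3 : Sw kap C h A ⊆ TB e₀ ρ (K2 k) :=
    i2.trans (TB_K (K1_sub_K2 L.k0 L.k1))
  have i4 : ∀ z ∈ Sw kap C h A, ∀ e ∈ A, dist (ft z) e ≤ C * z.1.im →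
      ‖th z - fs e‖ ≤ min ε δ := by
    intro z hz e he hd'
    refine hun e he z (i1 hz) (by rwa [← dist_eq_norm]) (hz.2.1.trans_le (min_le_right _ _))
  have i5 : ∀ z ∈ Sw kap C h A, th z ∈ K := by
    intro z hz
    obtain ⟨-, -, -, e, he, h4⟩ := id hz
    refine hKb e he ?_
    rw [mem_closedBall, dist_eq_norm]
    exact (i4 z hz e he h4.le).trans (min_le_right _ _)
  refine ⟨h, hpos, i1, i2, i3, fun z hz e he h4 => (i4 z hz e he h4).trans (min_le_left _ _),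
    fun z hz => ?_, ?_, ?_⟩
  · obtain ⟨h5, h6⟩ := hMp (th z) (i5 z hz) (al z) (p z) (L.inc z (i2 hz))
    exact ⟨i5 z hz, hMF _ (i5 z hz), h5, h6⟩
  · have dF : DifferentiableOn ℂ (fun z => F (th z)) (Sw kap C h A) :=
      L.cv.dF.comp (L.dth.mono i2) fun z hz => L.mem z (i2 hz)
    exact ((L.dal.mono i3).sub dF).const_mul _
  · intro z hz hexp
    have h5 := sin_zero_of_exp hexp
    have h6 := Mi_deriv L.cv (L.mem z (i2 hz)) (L.inc z (i2 hz))
    rw [h5, mul_zero] at h6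
    rcases mul_eq_zero.1 h6 with h7 | h7
    · exact (hKG (i5 z hz)).2 h7
    · exact L.smp z (i2 hz) h7

end Vale.Agent.P097.H109.Saw
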