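import Vale.Agent.P097.H315.Pick
import Vale.Agent.P097.H190.Ult

/-!
Row T-DISC (c): size of `ε` at the pick, and passage of the normalised lines to the limit along an
ultrafilter (holomorphic limits, non constancy, growth).
-/

open Complex Metric Filter Topology Set

namespace Vale.Agent.P097.H109.TD

open Vale.Agent.P097.H315.Pick Vale.Agent.P097.H190.Ult

/-! ### numerics at the pick -/

/-- size of `E` at the pick, plain form: `t` height of the base, `r` depth of the pick, `D` their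
distance -/
theorem eps_low {Ep Ez t t₀ D r c C : ℝ} (ht : 0 < t) (hr : 0 < r) (ht0 : 0 < t₀) (htD : t ≤ D)
    (hc : 0 < c) (hC : 0 < C) (h1 : c * (t / t₀) ^ (1 / 8 : ℝ) ≤ Ep)
    (h2 : Ep ≤ C * (Ez * ((t / D) ^ (1 / 2 : ℝ) * (r / D) ^ 2))) :
    c / C * ((D / t₀) ^ (1 / 8 : ℝ) * (D / r) ^ 2) ≤ Ez := by
  have hD : 0 < D := ht.trans_le htD
  have e1 : (D / t) ^ (1 / 8 : ℝ) ≤ (D / t) ^ (1 / 2 : ℝ) :=
    Real.rpow_le_rpow_of_exponent_le ((one_le_div ht).2 htD) (by norm_num)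
  have e2 : (t / D) ^ (1 / 2 : ℝ) * (D / t) ^ (1 / 2 : ℝ) = 1 := by
    rw [← Real.mul_rpow (by positivity) (by positivity)]
    have : t / D * (D / t) = 1 := by field_simp
    rw [this, Real.one_rpow]
  have e3 : (D / t₀) ^ (1 / 8 : ℝ) = (t / t₀) ^ (1 / 8 : ℝ) * (D / t) ^ (1 / 8 : ℝ) := by
    rw [← Real.mul_rpow (by positivity) (by positivity)]
    congr 1
    field_simp
  have e4 : (r / D) ^ 2 * (D / r) ^ 2 = 1 := by field_simp
  set x := (t / t₀) ^ (1 / 8 : ℝ) with hx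
  set y := (D / t) ^ (1 / 2 : ℝ) with hy
  set y' := (D / t) ^ (1 / 8 : ℝ) with hy'
  set s := (D / r) ^ 2 with hs
  have hx0 : 0 < x := Real.rpow_pos_of_pos (by positivity) _
  have hy0 : 0 < y := Real.rpow_pos_of_pos (by positivity) _
  have hs0 : 0 < s := by positivity
  have h3 : c * x ≤ C * (Ez * ((t / D) ^ (1 / 2 : ℝ) * (r / D) ^ 2)) := h1.trans h2
  have h4 : c * x * (y * s) ≤ C * Ez := by
    have h5 := mul_le_mul_of_nonneg_right h3 (by positivity : 0 ≤ y * s)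
    have h6 : C * (Ez * ((t / D) ^ (1 / 2 : ℝ) * (r / D) ^ 2)) * (y * s) =
        C * Ez * ((t / D) ^ (1 / 2 : ℝ) * y) * ((r / D) ^ 2 * s) := by ring
    rw [h6, e2, e4, mul_one, mul_one] at h5
    exact h5
  have h7 : c * ((D / t₀) ^ (1 / 8 : ℝ) * s) ≤ C * Ez := by
    rw [e3]
    refine le_trans ?_ h4
    have : x * y' * s ≤ x * y * s := by gcongr
    nlinarith
  rw [div_mul_eq_mul_div, div_le_iff₀ hC]
  linarith

/-- `r / E(z#)` is small with the scale `t₀` of the base -/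
theorem ratio_le {Ez t₀ D r c C C₁ : ℝ} (hr : 0 < r) (ht0 : 0 < t₀) (hrD : r ≤ D)
    (hc : 0 < c) (hC : 0 < C) (hD : D ≤ C₁ * t₀)
    (h : c / C * ((D / t₀) ^ (1 / 8 : ℝ) * (D / r) ^ 2) ≤ Ez) :
    0 < Ez ∧ c / C * (r / t₀) ^ (1 / 8 : ℝ) ≤ Ez ∧ r ≤ C / c * C₁ ^ (7 / 8 : ℝ) * t₀ * Ez := by
  have hD0 : 0 < D := hr.trans_le hrD
  have hC1 : 0 < C₁ := by
    by_contra hn
    push Not at hn
    nlinarith
  have h1 : (1 : ℝ) ≤ (D / r) ^ 2 := one_le_pow₀ ((one_le_div hr).2 hrD)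
  have h2 : (r / t₀) ^ (1 / 8 : ℝ) ≤ (D / t₀) ^ (1 / 8 : ℝ) :=
    Real.rpow_le_rpow (by positivity) (by gcongr) (by norm_num)
  have h3 : 0 < (r / t₀) ^ (1 / 8 : ℝ) := Real.rpow_pos_of_pos (by positivity) _
  have h4 : c / C * (r / t₀) ^ (1 / 8 : ℝ) ≤ Ez := by
    refine le_trans ?_ h
    have : (r / t₀) ^ (1 / 8 : ℝ) * 1 ≤ (D / t₀) ^ (1 / 8 : ℝ) * (D / r) ^ 2 := by gcongr
    rw [mul_one] at this
    gcongr
  have h5 : 0 < Ez := lt_of_lt_of_le (by positivity) h4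
  refine ⟨h5, h4, ?_⟩
  have h6 : r / t₀ = (r / t₀) ^ (1 / 8 : ℝ) * (r / t₀) ^ (7 / 8 : ℝ) := by
    rw [← Real.rpow_add (by positivity)]
    norm_num
  have h7 : (r / t₀) ^ (7 / 8 : ℝ) ≤ C₁ ^ (7 / 8 : ℝ) := by
    refine Real.rpow_le_rpow (by positivity) ?_ (by norm_num)
    rw [div_le_iff₀ ht0]
    exact hrD.trans hD
  have h8 : (r / t₀) ^ (1 / 8 : ℝ) ≤ C / c * Ez := by
    have := mul_le_mul_of_nonneg_left h4 (by positivity : 0 ≤ C / c)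
    have e : C / c * (c / C * (r / t₀) ^ (1 / 8 : ℝ)) = (r / t₀) ^ (1 / 8 : ℝ) := by field_simp
    rwa [e] at this
  have h9 : r / t₀ ≤ C / c * Ez * C₁ ^ (7 / 8 : ℝ) := by
    rw [h6]
    gcongr
  rw [div_le_iff₀ ht0] at h9
  linarith

/-- **size of `ε` at the pick** (315's near maximiser, exponent `1/2`) -/
theorem near_low {Z : Type*} {w : Win Z} {E : Z → ℝ} {p z : Z} (h : w.Near (1 / 2) E p z)
    (h1 : ∀ z, E z ≤ 1) {c t₀ : ℝ} (hc : 0 < c) (hc1 : c ≤ 1) (ht : w.ρ p ≤ t₀)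
    (hb : c * (w.ρ p / t₀) ^ (1 / 8 : ℝ) ≤ E p) :
    c / 2 ^ (7 / 2 : ℝ) * ((w.D p z / t₀) ^ (1 / 8 : ℝ) * (w.D p z / w.ρ z) ^ 2) ≤ E z ∧
      w.ρ z ≤ 2 ^ (14 : ℝ) / c ^ 3 * t₀ * E z ∧ w.D p z ≤ 2 ^ (7 : ℝ) / c ^ 2 * t₀ := by
  have hp := w.pos p
  have hz := w.pos z
  have ht0 : 0 < t₀ := hp.trans_le ht
  have hx : 0 < (w.ρ p / t₀) ^ (1 / 8 : ℝ) := Real.rpow_pos_of_pos (by positivity) _
  have hEp : 0 < E p := lt_of_lt_of_le (by positivity) hb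
  have h2 := h.base (by norm_num) hEp.le
  have e0 : (1 / 2 + 3 : ℝ) = 7 / 2 := by norm_num
  rw [e0] at h2
  have hC : (0 : ℝ) < 2 ^ (7 / 2 : ℝ) := by positivity
  have k1 := eps_low (D := w.D p z) hp hz ht0 (w.left p z) hc hC hb h2
  -- distance
  have h3 := h.dist (by norm_num) hEp h1
  rw [e0] at h3
  have e2 : (1 / (1 / 2) : ℝ) = 2 := by norm_num
  rw [e2, Real.rpow_two] at h3
  have k2 : w.D p z ≤ 2 ^ (7 : ℝ) / c ^ 2 * t₀ := by
    refine h3.trans ?_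
    have h4 : (2 ^ (7 / 2 : ℝ) / E p) ^ 2 ≤ (2 ^ (7 / 2 : ℝ) / (c * (w.ρ p / t₀) ^ (1 / 8 : ℝ))) ^ 2 := by
      have : 0 < c * (w.ρ p / t₀) ^ (1 / 8 : ℝ) := by positivity
      gcongr
    have h5 : (2 ^ (7 / 2 : ℝ) : ℝ) ^ 2 = 2 ^ (7 : ℝ) := by
      rw [← Real.rpow_natCast, ← Real.rpow_mul (by norm_num)]
      norm_num
    have h6 : ((w.ρ p / t₀) ^ (1 / 8 : ℝ)) ^ 2 = (w.ρ p / t₀) ^ (1 / 4 : ℝ) := by
      rw [← Real.rpow_natCast, ← Real.rpow_mul (by positivity)]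
      norm_num
    rw [div_pow, div_pow, mul_pow, h5, h6] at h4
    rw [div_pow, h5]
    have h7 : w.ρ p / t₀ ≤ (w.ρ p / t₀) ^ (1 / 4 : ℝ) := by
      have h8 : w.ρ p / t₀ ≤ 1 := (div_le_one ht0).2 ht
      have := Real.rpow_le_rpow_of_exponent_ge (by positivity : 0 < w.ρ p / t₀) h8
        (by norm_num : (1 / 4 : ℝ) ≤ 1)
      rwa [Real.rpow_one] at this
    have h9 : 0 < (w.ρ p / t₀) ^ (1 / 4 : ℝ) := Real.rpow_pos_of_pos (by positivity) _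
    have h10 : w.ρ p * (2 ^ (7 : ℝ) / E p ^ 2) ≤
        w.ρ p * (2 ^ (7 : ℝ) / (c ^ 2 * (w.ρ p / t₀) ^ (1 / 4 : ℝ))) := by
      gcongr
    refine h10.trans ?_
    rw [mul_div_assoc', div_le_iff₀ (by positivity)]
    have h11 : w.ρ p ≤ t₀ * (w.ρ p / t₀) ^ (1 / 4 : ℝ) := by
      rw [div_le_iff₀ ht0] at h7
      linarith
    calc w.ρ p * 2 ^ (7 : ℝ) ≤ t₀ * (w.ρ p / t₀) ^ (1 / 4 : ℝ) * 2 ^ (7 : ℝ) := by gcongr
      _ = 2 ^ (7 : ℝ) / c ^ 2 * t₀ * (c ^ 2 * (w.ρ p / t₀) ^ (1 / 4 : ℝ)) := by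
        field_simp
  refine ⟨k1, ?_, k2⟩
  obtain ⟨k3, k4, k5⟩ := ratio_le hz ht0 (w.right p z) hc hC k2 k1
  refine k5.trans ?_
  have hc2 : 1 ≤ 2 ^ (7 : ℝ) / c ^ 2 := by
    rw [one_le_div (by positivity)]
    have : c ^ 2 ≤ 1 := pow_le_one₀ hc.le hc1
    have : (1 : ℝ) ≤ 2 ^ (7 : ℝ) := Real.one_le_rpow (by norm_num) (by norm_num)
    linarith
  have h12 : (2 ^ (7 : ℝ) / c ^ 2 : ℝ) ^ (7 / 8 : ℝ) ≤ 2 ^ (7 : ℝ) / c ^ 2 := by
    have := Real.rpow_le_rpow_of_exponent_le hc2 (by norm_num : (7 / 8 : ℝ) ≤ 1)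
    rwa [Real.rpow_one] at this
  have h13 : (2 : ℝ) ^ (7 / 2 : ℝ) ≤ 2 ^ (7 : ℝ) :=
    Real.rpow_le_rpow_of_exponent_le (by norm_num) (by norm_num)
  have h14 : (2 : ℝ) ^ (14 : ℝ) = 2 ^ (7 : ℝ) * 2 ^ (7 : ℝ) := by
    rw [← Real.rpow_add (by norm_num)]; norm_num
  calc 2 ^ (7 / 2 : ℝ) / c * (2 ^ (7 : ℝ) / c ^ 2) ^ (7 / 8 : ℝ) * t₀ * E z
      ≤ 2 ^ (7 : ℝ) / c * (2 ^ (7 : ℝ) / c ^ 2) * t₀ * E z := by gcongr
    _ = 2 ^ (14 : ℝ) / c ^ 3 * t₀ * E z := by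
      rw [h14]; field_simp

/-! ### passage to the limit -/

variable {ι : Type*} {V : Type*} [NormedAddCommGroup V] [NormedSpace ℂ V]

theorem locBdd_norm {l : Filter ι} {D : Set V} (hD : IsOpen D) [ProperSpace V] {a : ι → V → ℂ}
    {ca : ι → ℂ} {ε : ι → ℝ} (hε : ∀ᶠ n in l, 0 < ε n)
    (hb : ∀ K ⊆ D, IsCompact K → ∃ C : ℝ, ∀ᶠ n in l, ∀ z ∈ K, DifferentiableAt ℂ (a n) z ∧
      ‖a n z - ca n‖ ≤ C * ε n) : LocBdd l (fun n z => (a n z - ca n) / (ε n : ℂ)) D := by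
  intro x hx
  obtain ⟨r, hr, h1⟩ := Metric.nhds_basis_closedBall.mem_iff.1 (hD.mem_nhds hx)
  obtain ⟨C, hC⟩ := hb _ h1 (isCompact_closedBall x r)
  refine ⟨r, hr, C, ?_⟩
  filter_upwards [hC, hε] with n hn hn0
  refine ⟨fun y hy => ?_, fun y hy => ?_⟩
  · have h2 := ((hn y (ball_subset_closedBall hy)).1.sub_const (ca n)).mul_const ((ε n : ℂ)⁻¹)
    simp only [← div_eq_mul_inv] at h2
    exact h2.differentiableWithinAt
  · rw [norm_div, Complex.norm_real, Real.norm_of_nonneg hn0.le, div_le_iff₀ hn0]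
    exact (hn y (ball_subset_closedBall hy)).2

/-- limits of holomorphic functions: a lower bound of the derivative at moving points survives -/
theorem nonconst {𝒰 : Ultrafilter ι} [ProperSpace V] {D : Set V} (hD : IsOpen D)
    {f : ι → V → ℂ} {g : V → ℂ} (hf : LocBdd (𝒰 : Filter ι) f D)
    (hfg : TendstoLocallyUniformlyOn f g (𝒰 : Filter ι) D) (hg : DifferentiableOn ℂ g D)
    {x : V} (hx : x ∈ D) {u : ι → V} (hu : Tendsto u 𝒰 (𝓝 x)) {c : ℝ} (hc : 0 < c)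
    (h0 : ∀ z ∈ D, fderiv ℂ g z = 0) : ∀ᶠ n in (𝒰 : Filter ι), ‖fderiv ℂ (f n) (u n)‖ ≤ c := by
  obtain ⟨r, hr, C, hC⟩ := hf x hx
  obtain ⟨r', hr', h1⟩ := Metric.nhds_basis_closedBall.mem_iff.1 (hD.mem_nhds hx)
  set s := min r r' with hs
  have hs0 : 0 < s := lt_min hr hr'
  have hsD : closedBall x s ⊆ D := (closedBall_subset_closedBall (min_le_right _ _)).trans h1
  have hsb : ball x s ⊆ D := ball_subset_closedBall.trans hsD
  have hconst : ∀ y ∈ ball x s, g y = g x := by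
    intro y hy
    have h2 : ∀ z ∈ ball x s, fderivWithin ℂ g (ball x s) z = 0 := by
      intro z hz
      rw [fderivWithin_of_isOpen isOpen_ball hz]
      exact h0 z (hsb hz)
    exact (convex_ball x s).is_const_of_fderivWithin_eq_zero (𝕜 := ℂ) (hg.mono hsb) h2 hy
      (mem_ball_self hs0)
  have hun : ∀ᶠ n in (𝒰 : Filter ι), ∀ y ∈ closedBall x (s / 2), ‖f n y - g y‖ ≤ c * s / 8 := by
    have h3 := (tendstoLocallyUniformlyOn_iff_forall_isCompact hD).1 hfg _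
      ((closedBall_subset_closedBall (by linarith)).trans hsD) (isCompact_closedBall x (s / 2))
    rw [Metric.tendstoUniformlyOn_iff] at h3
    filter_upwards [h3 (c * s / 8) (by positivity)] with n hn y hy
    have := hn y hy
    rw [dist_comm, dist_eq_norm] at this
    exact this.le
  filter_upwards [hun, hC, hu (ball_mem_nhds x (show 0 < s / 2 / 4 by positivity))] with n h4 h5 h6
  have h7 : DifferentiableOn ℂ (fun y => f n y - g x) (ball x (s / 2)) := by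
    refine DifferentiableOn.sub_const (h5.1.mono (ball_subset_ball ?_)) _
    exact (half_le_self hs0.le).trans (min_le_left _ _)
  have h8 : ∀ y ∈ ball x (s / 2), ‖f n y - g x‖ ≤ c * s / 8 := by
    intro y hy
    have h9 := h4 y (ball_subset_closedBall hy)
    rwa [hconst y (ball_subset_ball (by linarith) hy)] at h9
  have h10 : ‖fderiv ℂ (f n) (u n)‖ ≤ c := by
    refine norm_fderiv_le_of_lip' ℂ hc.le ?_
    filter_upwards [isOpen_ball.mem_nhds h6] with z hz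
    have h11 := lip_of_bdd (show 0 < s / 2 by positivity) h7 h8 h6 hz
    rw [dist_eq_norm, dist_eq_norm, sub_sub_sub_cancel_right] at h11
    refine h11.trans (le_of_eq ?_)
    field_simp
    ring
  exact h10

/-- **passage** of the normalised lines to the limit: `D` open, `θ` any exponent -/
theorem pass {𝒰 : Ultrafilter ι} [ProperSpace V] {D : Set V} (hD : IsOpen D)
    {a p : ι → V → ℂ} {ca cp : ι → ℂ} {ε : ι → ℝ} (hε : ∀ᶠ n in (𝒰 : Filter ι), 0 < ε n)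
    (hb : ∀ K ⊆ D, IsCompact K → ∃ C : ℝ, ∀ᶠ n in (𝒰 : Filter ι), ∀ z ∈ K,
      DifferentiableAt ℂ (a n) z ∧ DifferentiableAt ℂ (p n) z ∧
      ‖a n z - ca n‖ ≤ C * ε n ∧ ‖p n z - cp n‖ ≤ C * ε n)
    {x : V} (hx : x ∈ D) {u : ι → V} (hu : Tendsto u 𝒰 (𝓝 x)) {c : ℝ} (hc : 0 < c)
    (hnc : ∀ᶠ n in (𝒰 : Filter ι), c * ε n ≤ ‖fderiv ℂ (a n) (u n)‖ + ‖fderiv ℂ (p n) (u n)‖) :
    ∃ A' P' : V → ℂ, DifferentiableOn ℂ A' D ∧ DifferentiableOn ℂ P' D ∧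
      TendstoLocallyUniformlyOn (fun n z => (a n z - ca n) / (ε n : ℂ)) A' (𝒰 : Filter ι) D ∧
      TendstoLocallyUniformlyOn (fun n z => (p n z - cp n) / (ε n : ℂ)) P' (𝒰 : Filter ι) D ∧
      (∃ z ∈ D, fderiv ℂ A' z ≠ 0 ∨ fderiv ℂ P' z ≠ 0) ∧
      ∀ z ∈ D, ∀ B : ℝ, (∀ᶠ n in (𝒰 : Filter ι), ‖a n z - ca n‖ ≤ B * ε n ∧
        ‖p n z - cp n‖ ≤ B * ε n) → ‖A' z‖ ≤ B ∧ ‖P' z‖ ≤ B := by
  have la : LocBdd (𝒰 : Filter ι) (fun n z => (a n z - ca n) / (ε n : ℂ)) D :=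
    locBdd_norm hD hε fun K hK hKc => by
      obtain ⟨C, hC⟩ := hb K hK hKc
      exact ⟨C, hC.mono fun n hn z hz => ⟨(hn z hz).1, (hn z hz).2.2.1⟩⟩
  have lp : LocBdd (𝒰 : Filter ι) (fun n z => (p n z - cp n) / (ε n : ℂ)) D :=
    locBdd_norm hD hε fun K hK hKc => by
      obtain ⟨C, hC⟩ := hb K hK hKc
      exact ⟨C, hC.mono fun n hn z hz => ⟨(hn z hz).2.1, (hn z hz).2.2.2⟩⟩
  obtain ⟨A', dA, tA, cA⟩ := montel_full 𝒰 hD la
  obtain ⟨P', dP, tP, cP⟩ := montel_full 𝒰 hD lp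
  refine ⟨A', P', dA, dP, tA, tP, ?_, ?_⟩
  · by_contra hcon
    push Not at hcon
    have n1 := nonconst hD la tA dA hx hu (show 0 < c / 3 by positivity) fun z hz => (hcon z hz).1
    have n2 := nonconst hD lp tP dP hx hu (show 0 < c / 3 by positivity) fun z hz => (hcon z hz).2
    obtain ⟨n, h1, h2, h3, h4, h5⟩ := (n1.and (n2.and (hnc.and (hε.and (hu (hD.mem_nhds hx)))))).exists
    have sc : ∀ (f : V → ℂ) (k : ℂ) (y : V), ‖fderiv ℂ (fun z => (f z - k) / (ε n : ℂ)) y‖ =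
        ‖fderiv ℂ f y‖ / ε n := by
      intro f k y
      have e1 : (fun z => (f z - k) / (ε n : ℂ)) = ((ε n : ℂ)⁻¹) • (fun z => f z - k) := by
        funext z
        rw [Pi.smul_apply, smul_eq_mul, div_eq_inv_mul]
      rw [e1, fderiv_const_smul_field, Pi.smul_apply, fderiv_sub_const, norm_smul, norm_inv, Complex.norm_real,
        Real.norm_of_nonneg h4.le]
      ring
    rw [sc] at h1 h2
    rw [div_le_iff₀ h4] at h1 h2
    nlinarith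
  · intro z hz B hB
    have t1 := cA z hz (fun _ => z) tendsto_const_nhds
    have t2 := cP z hz (fun _ => z) tendsto_const_nhds
    refine ⟨le_of_tendsto t1.norm ?_, le_of_tendsto t2.norm ?_⟩
    · filter_upwards [hB, hε] with n hn h0
      rw [norm_div, Complex.norm_real, Real.norm_of_nonneg h0.le, div_le_iff₀ h0]
      exact hn.1
    · filter_upwards [hB, hε] with n hn h0
      rw [norm_div, Complex.norm_real, Real.norm_of_nonneg h0.le, div_le_iff₀ h0]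
      exact hn.2

end Vale.Agent.P097.H109.TD
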