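import Mathlib.MeasureTheory.Measure.Lebesgue.Basic
import Mathlib.MeasureTheory.Measure.Prod
import Mathlib.MeasureTheory.Integral.MeanInequalities
import Mathlib.Algebra.Order.Chebyshev
import Mathlib.Topology.UniformSpace.HeineCantor

/-!
# P097, row D4 of the Bishop discs: dyadic variation and the measure of images

`var_image` (V1): `g` continuous with dyadic energies `≤ E` on `[a, b]`: the image of an open subset `U`
under `p ↦ p - g p` has measure `≤ |U| + (|U| E)^(1/2)`.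

`var_image2` (V2): the two variable version.
-/

open MeasureTheory Set Metric
open scoped ENNReal Topology

namespace Vale.Agent.P097.H109.Var

/-- dyadic points -/
noncomputable def X (a b : ℝ) (n : ℕ) (k : ℕ) : ℝ := a + (k : ℝ) * (b - a) / 2 ^ n

theorem X_split (a b : ℝ) (n j k l : ℕ) :
    X a b (n + j) (k * 2 ^ j + l) = X a b n k + l * ((b - a) / 2 ^ (n + j)) := by
  unfold X
  push_cast
  rw [pow_add]
  field_simp
  ring

/-- oscillation of `g` on a dyadic interval by the finer increments -/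
theorem osc_le {g : ℝ → ℝ} {a b : ℝ} (hab : a < b) {δ η : ℝ}
    (hu : ∀ s ∈ Icc a b, ∀ t ∈ Icc a b, |s - t| ≤ η → |g s - g t| ≤ δ) {n j k : ℕ} (hk : k < 2 ^ n)
    (hη : (b - a) / 2 ^ (n + j) ≤ η) {s t : ℝ} (hs : s ∈ Icc (X a b n k) (X a b n (k + 1)))
    (ht : t ∈ Icc (X a b n k) (X a b n (k + 1))) :
    |g s - g t| ≤ (∑ l ∈ Finset.range (2 ^ j),
      |g (X a b (n + j) (k * 2 ^ j + l + 1)) - g (X a b (n + j) (k * 2 ^ j + l))|) + 2 * δ := by
  set h : ℝ := (b - a) / 2 ^ (n + j) with hh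
  have hh0 : 0 < h := by rw [hh]; have : 0 < b - a := by linarith
                         positivity
  have e1 : X a b n (k + 1) = X a b n k + 2 ^ j * h := by
    have := X_split a b n j k (2 ^ j)
    rw [show k * 2 ^ j + 2 ^ j = (k + 1) * 2 ^ j + 0 by ring, X_split] at this
    push_cast at this
    linarith
  have ha : a ≤ X a b n k := by
    unfold X
    have : 0 ≤ (k : ℝ) * (b - a) / 2 ^ n := by have : 0 < b - a := by linarith
                                               positivity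
    linarith
  have hb : X a b n (k + 1) ≤ b := by
    unfold X
    have h2 : ((k + 1 : ℕ) : ℝ) ≤ 2 ^ n := by exact_mod_cast hk
    have h3 : ((k + 1 : ℕ) : ℝ) * (b - a) / 2 ^ n ≤ b - a := by
      rw [div_le_iff₀ (by positivity)]
      nlinarith
    linarith
  -- nearest dyadic point
  have key : ∀ s ∈ Icc (X a b n k) (X a b n (k + 1)), ∃ l ≤ 2 ^ j,
      |g s - g (X a b (n + j) (k * 2 ^ j + l))| ≤ δ := by
    intro s hs
    refine ⟨⌊(s - X a b n k) / h⌋₊, ?_, ?_⟩
    · have h1 : (s - X a b n k) / h ≤ ((2 ^ j : ℕ) : ℝ) := by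
        rw [div_le_iff₀ hh0]
        push_cast
        linarith [hs.2]
      exact_mod_cast (Nat.floor_le_floor h1).trans_eq (Nat.floor_natCast _)
    · set l := ⌊(s - X a b n k) / h⌋₊ with hl
      have h0 : 0 ≤ (s - X a b n k) / h := div_nonneg (by linarith [hs.1]) hh0.le
      have h1 : (l : ℝ) ≤ (s - X a b n k) / h := Nat.floor_le h0
      have h2 : (s - X a b n k) / h < l + 1 := Nat.lt_floor_add_one _
      rw [le_div_iff₀ hh0] at h1
      rw [div_lt_iff₀ hh0] at h2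
      rw [X_split]
      refine hu s ⟨ha.trans hs.1, hs.2.trans hb⟩ _ ⟨?_, ?_⟩ ?_
      · have : 0 ≤ (l : ℝ) * h := by positivity
        linarith
      · linarith [hs.2]
      · rw [abs_le]
        constructor <;> nlinarith
  obtain ⟨l1, hl1, h1⟩ := key s hs
  obtain ⟨l2, hl2, h2⟩ := key t ht
  have tele : ∀ l l' : ℕ, l ≤ l' → l' ≤ 2 ^ j →
      |g (X a b (n + j) (k * 2 ^ j + l)) - g (X a b (n + j) (k * 2 ^ j + l'))| ≤
      ∑ l ∈ Finset.range (2 ^ j),
        |g (X a b (n + j) (k * 2 ^ j + l + 1)) - g (X a b (n + j) (k * 2 ^ j + l))| := by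
    intro l l' hll hl'
    have h3 := dist_le_Ico_sum_dist (fun l => g (X a b (n + j) (k * 2 ^ j + l))) hll
    rw [Real.dist_eq] at h3
    refine h3.trans ?_
    refine (Finset.sum_le_sum_of_subset_of_nonneg (t := Finset.range (2 ^ j)) (fun i hi => ?_)
      fun _ _ _ => dist_nonneg).trans (le_of_eq (Finset.sum_congr rfl fun i _ => ?_))
    · rw [Finset.mem_Ico] at hi
      exact Finset.mem_range.2 (lt_of_lt_of_le hi.2 hl')
    · rw [Real.dist_eq, abs_sub_comm]
      rfl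
  have h4 : |g (X a b (n + j) (k * 2 ^ j + l1)) - g (X a b (n + j) (k * 2 ^ j + l2))| ≤
      ∑ l ∈ Finset.range (2 ^ j),
        |g (X a b (n + j) (k * 2 ^ j + l + 1)) - g (X a b (n + j) (k * 2 ^ j + l))| := by
    rcases le_total l1 l2 with h | h
    · exact tele l1 l2 h hl2
    · rw [abs_sub_comm]
      exact tele l2 l1 h hl1
  have h5 : g s - g t = (g s - g (X a b (n + j) (k * 2 ^ j + l1))) +
      (g (X a b (n + j) (k * 2 ^ j + l1)) - g (X a b (n + j) (k * 2 ^ j + l2))) -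
      (g t - g (X a b (n + j) (k * 2 ^ j + l2))) := by ring
  rw [h5]
  refine (abs_sub _ _).trans ?_
  have h6 := abs_add_le (g s - g (X a b (n + j) (k * 2 ^ j + l1)))
    (g (X a b (n + j) (k * 2 ^ j + l1)) - g (X a b (n + j) (k * 2 ^ j + l2)))
  linarith

/-- Cauchy-Schwarz over the finer increments -/
theorem sum_le_sqrt {g : ℝ → ℝ} {a b E : ℝ}
    (hE : ∀ n : ℕ, ∑ k ∈ Finset.range (2 ^ n), (g (X a b n (k + 1)) - g (X a b n k)) ^ 2 ≤
      (b - a) / 2 ^ n * E) {n j : ℕ} (S : Finset ℕ) (hS : S ⊆ Finset.range (2 ^ n)) :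
    ∑ k ∈ S, ∑ l ∈ Finset.range (2 ^ j),
      |g (X a b (n + j) (k * 2 ^ j + l + 1)) - g (X a b (n + j) (k * 2 ^ j + l))| ≤
      Real.sqrt (S.card * ((b - a) / 2 ^ n) * E) := by
  classical
  refine Real.le_sqrt_of_sq_le ?_
  set D : ℕ → ℝ := fun i => |g (X a b (n + j) (i + 1)) - g (X a b (n + j) i)| with hD
  have h1 : ∑ k ∈ S, ∑ l ∈ Finset.range (2 ^ j), D (k * 2 ^ j + l) =
      ∑ q ∈ S ×ˢ Finset.range (2 ^ j), D (q.1 * 2 ^ j + q.2) := by
    rw [Finset.sum_product]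
  have h2 : (∑ q ∈ S ×ˢ Finset.range (2 ^ j), D (q.1 * 2 ^ j + q.2)) ^ 2 ≤
      (S ×ˢ Finset.range (2 ^ j)).card *
        ∑ q ∈ S ×ˢ Finset.range (2 ^ j), D (q.1 * 2 ^ j + q.2) ^ 2 := sq_sum_le_card_mul_sum_sq
  have hinj : Set.InjOn (fun q : ℕ × ℕ => q.1 * 2 ^ j + q.2)
      (S ×ˢ Finset.range (2 ^ j) : Finset (ℕ × ℕ)) := by
    intro q hq q' hq' h
    rw [Finset.mem_coe, Finset.mem_product] at hq hq'
    have r1 := Finset.mem_range.1 hq.2
    have r2 := Finset.mem_range.1 hq'.2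
    simp only at h
    have p0 : 0 < 2 ^ j := by positivity
    have e1 : q.1 = q'.1 := by
      have d1 : (q.1 * 2 ^ j + q.2) / 2 ^ j = q.1 := by
        rw [mul_comm, Nat.mul_add_div p0, Nat.div_eq_of_lt r1, add_zero]
      have d2 : (q'.1 * 2 ^ j + q'.2) / 2 ^ j = q'.1 := by
        rw [mul_comm, Nat.mul_add_div p0, Nat.div_eq_of_lt r2, add_zero]
      rw [← d1, ← d2, h]
    have e2 : q.2 = q'.2 := by rw [e1] at h; omega
    exact Prod.ext e1 e2
  have h3 : ∑ q ∈ S ×ˢ Finset.range (2 ^ j), D (q.1 * 2 ^ j + q.2) ^ 2 ≤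
      ∑ i ∈ Finset.range (2 ^ (n + j)), D i ^ 2 := by
    rw [← Finset.sum_image (f := fun i => D i ^ 2) (g := fun q : ℕ × ℕ => q.1 * 2 ^ j + q.2)
      (s := S ×ˢ Finset.range (2 ^ j)) hinj]
    refine Finset.sum_le_sum_of_subset_of_nonneg (fun i hi => ?_) fun _ _ _ => sq_nonneg _
    obtain ⟨q, hq, rfl⟩ := Finset.mem_image.1 hi
    rw [Finset.mem_product] at hq
    have r1 := Finset.mem_range.1 (hS hq.1)
    have r2 := Finset.mem_range.1 hq.2
    rw [Finset.mem_range, pow_add]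
    have : (q.1 + 1) * 2 ^ j ≤ 2 ^ n * 2 ^ j := Nat.mul_le_mul_right _ r1
    nlinarith
  have h4 : ∑ i ∈ Finset.range (2 ^ (n + j)), D i ^ 2 ≤ (b - a) / 2 ^ (n + j) * E := by
    refine le_trans (le_of_eq (Finset.sum_congr rfl fun i _ => ?_)) (hE (n + j))
    simp only [hD, sq_abs]
  change (∑ k ∈ S, ∑ l ∈ Finset.range (2 ^ j), D (k * 2 ^ j + l)) ^ 2 ≤ _
  rw [h1]
  refine h2.trans ?_
  rw [Finset.card_product, Finset.card_range]
  push_cast
  calc (S.card : ℝ) * 2 ^ j * ∑ q ∈ S ×ˢ Finset.range (2 ^ j), D (q.1 * 2 ^ j + q.2) ^ 2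
      ≤ (S.card : ℝ) * 2 ^ j * ((b - a) / 2 ^ (n + j) * E) := by
        gcongr
        exact h3.trans h4
    _ = S.card * ((b - a) / 2 ^ n) * E := by
        rw [pow_add]
        field_simp

/-- the dyadic intervals of level `n` inside `U` -/
noncomputable def Sn (a b : ℝ) (U : Set ℝ) (n : ℕ) : Finset ℕ :=
  @Finset.filter ℕ (fun k => Icc (X a b n k) (X a b n (k + 1)) ⊆ U) (Classical.decPred _)
    (Finset.range (2 ^ n))

theorem mem_Sn {a b : ℝ} {U : Set ℝ} {n k : ℕ} : k ∈ Sn a b U n ↔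
    k < 2 ^ n ∧ Icc (X a b n k) (X a b n (k + 1)) ⊆ U := by
  unfold Sn
  rw [@Finset.mem_filter _ _ (Classical.decPred _), Finset.mem_range]

theorem X_succ (a b : ℝ) (n k : ℕ) : X a b n (k + 1) = X a b n k + (b - a) / 2 ^ n := by
  unfold X
  push_cast
  ring

theorem card_Sn_le {a b : ℝ} (hab : a < b) (U : Set ℝ) (n : ℕ) :
    ENNReal.ofReal ((Sn a b U n).card * ((b - a) / 2 ^ n)) ≤ volume U := by
  have hh : 0 < (b - a) / 2 ^ n := by have : 0 < b - a := by linarith
                                      positivity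
  have h1 : (⋃ k ∈ Sn a b U n, Ioc (X a b n k) (X a b n (k + 1))) ⊆ U := by
    refine iUnion₂_subset fun k hk => ?_
    exact Ioc_subset_Icc_self.trans (mem_Sn.1 hk).2
  refine le_trans (le_of_eq ?_) (measure_mono h1)
  rw [measure_biUnion_finset]
  · simp only [Real.volume_Ioc, X_succ, add_sub_cancel_left, Finset.sum_const, nsmul_eq_mul]
    rw [ENNReal.ofReal_mul (by positivity), ENNReal.ofReal_natCast]
  · intro k _ k' _ hkk
    refine Set.disjoint_left.2 fun y hy hy' => ?_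
    rcases lt_or_gt_of_ne hkk with h | h
    · have : X a b n (k + 1) ≤ X a b n k' := by
        unfold X
        have : ((k + 1 : ℕ) : ℝ) ≤ k' := by exact_mod_cast h
        have h0 : 0 ≤ b - a := by linarith
        gcongr
      linarith [hy.2, hy'.1]
    · have : X a b n (k' + 1) ≤ X a b n k := by
        unfold X
        have : ((k' + 1 : ℕ) : ℝ) ≤ k := by exact_mod_cast h
        have h0 : 0 ≤ b - a := by linarith
        gcongr
      linarith [hy'.2, hy.1]
  · exact fun k _ => measurableSet_Ioc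

/-- level `n` part of the image -/
theorem level {g : ℝ → ℝ} (hg : Continuous g) {a b E : ℝ} (hab : a < b) (hE0 : 0 ≤ E)
    (hE : ∀ n : ℕ, ∑ k ∈ Finset.range (2 ^ n), (g (X a b n (k + 1)) - g (X a b n k)) ^ 2 ≤
      (b - a) / 2 ^ n * E) (U : Set ℝ) (n : ℕ) :
    volume (⋃ k ∈ Sn a b U n, (fun p => p - g p) '' Icc (X a b n k) (X a b n (k + 1))) ≤
      volume U + (volume U * ENNReal.ofReal E) ^ (1 / 2 : ℝ) := by
  set L : ℝ := (Sn a b U n).card * ((b - a) / 2 ^ n) with hL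
  have hL0 : 0 ≤ L := by
    have : 0 ≤ b - a := by linarith
    positivity
  have hstep : ∀ δ > 0,
      volume (⋃ k ∈ Sn a b U n, (fun p => p - g p) '' Icc (X a b n k) (X a b n (k + 1))) ≤
      ENNReal.ofReal (L + Real.sqrt (L * E) + (Sn a b U n).card * (2 * δ)) := by
    intro δ hδ
    have huc := (isCompact_Icc (a := a) (b := b)).uniformContinuousOn_of_continuous hg.continuousOn
    rw [Metric.uniformContinuousOn_iff] at huc
    obtain ⟨η, hη, hu⟩ := huc δ hδ
    obtain ⟨j, hj⟩ : ∃ j : ℕ, (b - a) / 2 ^ (n + j) ≤ η / 2 := by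
      obtain ⟨j, hj⟩ := exists_nat_gt ((b - a) / (η / 2))
      refine ⟨j, ?_⟩
      have h1 : (j : ℝ) < 2 ^ j := by exact_mod_cast Nat.lt_two_pow_self
      have h2 : (2 : ℝ) ^ j ≤ 2 ^ (n + j) := pow_le_pow_right₀ (by norm_num) (by omega)
      rw [div_lt_iff₀ (by positivity)] at hj
      rw [div_le_iff₀ (by positivity)]
      nlinarith
    have hu' : ∀ s ∈ Icc a b, ∀ t ∈ Icc a b, |s - t| ≤ η / 2 → |g s - g t| ≤ δ := by
      intro s hs t ht hst
      have := hu s hs t ht (by rw [Real.dist_eq]; linarith)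
      rw [Real.dist_eq] at this
      exact this.le
    calc volume (⋃ k ∈ Sn a b U n, (fun p => p - g p) '' Icc (X a b n k) (X a b n (k + 1)))
        ≤ ∑ k ∈ Sn a b U n, volume ((fun p => p - g p) '' Icc (X a b n k) (X a b n (k + 1))) :=
          measure_biUnion_finset_le _ _
      _ ≤ ∑ k ∈ Sn a b U n, ENNReal.ofReal ((b - a) / 2 ^ n + ((∑ l ∈ Finset.range (2 ^ j),
            |g (X a b (n + j) (k * 2 ^ j + l + 1)) - g (X a b (n + j) (k * 2 ^ j + l))|) + 2 * δ)) := by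
          refine Finset.sum_le_sum fun k hk => ?_
          refine (Real.volume_le_diam _).trans (Metric.ediam_le ?_)
          rintro _ ⟨s, hs, rfl⟩ _ ⟨t, ht, rfl⟩
          rw [edist_dist, Real.dist_eq]
          refine ENNReal.ofReal_le_ofReal ?_
          have h1 := osc_le hab hu' (mem_Sn.1 hk).1 hj hs ht
          have h2 : |s - t| ≤ (b - a) / 2 ^ n := by
            rw [X_succ] at hs ht
            rw [abs_le]
            constructor <;> linarith [hs.1, hs.2, ht.1, ht.2]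
          have h3 : s - g s - (t - g t) = (s - t) - (g s - g t) := by ring
          rw [h3]
          exact (abs_sub _ _).trans (add_le_add h2 h1)
      _ = ENNReal.ofReal (∑ k ∈ Sn a b U n, ((b - a) / 2 ^ n + ((∑ l ∈ Finset.range (2 ^ j),
            |g (X a b (n + j) (k * 2 ^ j + l + 1)) - g (X a b (n + j) (k * 2 ^ j + l))|) + 2 * δ))) := by
          rw [ENNReal.ofReal_sum_of_nonneg]
          intro k _
          have : 0 < b - a := by linarith
          positivity
      _ ≤ ENNReal.ofReal (L + Real.sqrt (L * E) + (Sn a b U n).card * (2 * δ)) := by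
          refine ENNReal.ofReal_le_ofReal ?_
          rw [Finset.sum_add_distrib, Finset.sum_add_distrib, Finset.sum_const, Finset.sum_const,
            nsmul_eq_mul, nsmul_eq_mul, ← add_assoc]
          have := sum_le_sqrt hE (n := n) (j := j) (Sn a b U n)
            (fun k hk => Finset.mem_range.2 (mem_Sn.1 hk).1)
          gcongr
  have h2 : volume (⋃ k ∈ Sn a b U n, (fun p => p - g p) '' Icc (X a b n k) (X a b n (k + 1))) ≤
      ENNReal.ofReal (L + Real.sqrt (L * E)) := by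
    refine ENNReal.le_of_forall_pos_le_add fun e he _ => ?_
    have hc : (0 : ℝ) < (Sn a b U n).card + 1 := by positivity
    refine (hstep ((e : ℝ) / (2 * ((Sn a b U n).card + 1))) (by positivity)).trans ?_
    rw [← ENNReal.ofReal_coe_nnreal (p := e), ← ENNReal.ofReal_add (add_nonneg hL0 (Real.sqrt_nonneg _)) e.coe_nonneg]
    refine ENNReal.ofReal_le_ofReal ?_
    have h3 : ((Sn a b U n).card : ℝ) * (2 * ((e : ℝ) / (2 * ((Sn a b U n).card + 1)))) ≤ e := by
      have h4 : ((Sn a b U n).card : ℝ) * (2 * ((e : ℝ) / (2 * ((Sn a b U n).card + 1)))) =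
        e * (((Sn a b U n).card : ℝ) / ((Sn a b U n).card + 1)) := by field_simp
      rw [h4]
      have h5 : ((Sn a b U n).card : ℝ) / ((Sn a b U n).card + 1) ≤ 1 := by
        rw [div_le_one hc]; linarith
      have he0 : (0 : ℝ) ≤ e := e.2
      nlinarith
    linarith
  refine h2.trans ?_
  rw [ENNReal.ofReal_add hL0 (Real.sqrt_nonneg _)]
  have hLU := card_Sn_le hab U n
  refine add_le_add hLU ?_
  rw [Real.sqrt_eq_rpow, ← ENNReal.ofReal_rpow_of_nonneg (by positivity) (by norm_num),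
    ENNReal.ofReal_mul hL0]
  gcongr

/-- every point of an open `U ⊆ (a, b)` is in a dyadic interval inside `U` -/
theorem cover {a b : ℝ} (hab : a < b) {U : Set ℝ} (hU : IsOpen U) (hUab : U ⊆ Ioo a b) :
    U ⊆ ⋃ n : ℕ, ⋃ k ∈ Sn a b U n, Icc (X a b n k) (X a b n (k + 1)) := by
  intro s hs
  obtain ⟨η, hη, hball⟩ := Metric.isOpen_iff.1 hU s hs
  have hba : 0 < b - a := by linarith
  obtain ⟨n, hn⟩ : ∃ n : ℕ, (b - a) / 2 ^ n < η := by
    obtain ⟨n, hn⟩ := exists_nat_gt ((b - a) / η)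
    refine ⟨n, ?_⟩
    have h1 : (n : ℝ) < 2 ^ n := by exact_mod_cast Nat.lt_two_pow_self
    rw [div_lt_iff₀ hη] at hn
    rw [div_lt_iff₀ (by positivity)]
    nlinarith
  have hh0 : 0 < (b - a) / 2 ^ n := by positivity
  have hsab := hUab hs
  set k := ⌊(s - a) / ((b - a) / 2 ^ n)⌋₊ with hk
  have h0 : 0 ≤ (s - a) / ((b - a) / 2 ^ n) := div_nonneg (by linarith [hsab.1]) hh0.le
  have h1 : (k : ℝ) ≤ (s - a) / ((b - a) / 2 ^ n) := Nat.floor_le h0
  have h2 : (s - a) / ((b - a) / 2 ^ n) < k + 1 := Nat.lt_floor_add_one _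
  rw [le_div_iff₀ hh0] at h1
  rw [div_lt_iff₀ hh0] at h2
  have e0 : X a b n k = a + k * ((b - a) / 2 ^ n) := by unfold X; ring
  have hsI : s ∈ Icc (X a b n k) (X a b n (k + 1)) := by
    rw [X_succ, e0]
    constructor <;> linarith
  have hk2 : k < 2 ^ n := by
    by_contra hcon
    rw [not_lt] at hcon
    have h3 : ((2 : ℝ) ^ n) ≤ k := by exact_mod_cast hcon
    have h4 : (2 : ℝ) ^ n * ((b - a) / 2 ^ n) = b - a := by field_simp
    nlinarith [hsab.2]
  simp only [mem_iUnion]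
  refine ⟨n, k, mem_Sn.2 ⟨hk2, fun t ht => hball ?_⟩, hsI⟩
  rw [mem_ball, Real.dist_eq, abs_lt]
  rw [X_succ] at ht hsI
  constructor <;> linarith [ht.1, ht.2, hsI.1, hsI.2]

/-- the level sets increase -/
theorem mono_level {a b : ℝ} (hab : a < b) (U : Set ℝ) :
    Monotone fun n : ℕ => ⋃ k ∈ Sn a b U n, Icc (X a b n k) (X a b n (k + 1)) := by
  refine monotone_nat_of_le_succ fun n => ?_
  intro s hs
  simp only [mem_iUnion] at hs ⊢
  obtain ⟨k, hk, hs⟩ := hs
  have hba : 0 ≤ b - a := by linarith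
  have e0 : X a b (n + 1) (2 * k) = X a b n k := by
    unfold X; push_cast; rw [pow_succ]; field_simp
  have e2 : X a b (n + 1) (2 * k + 1 + 1) = X a b n (k + 1) := by
    unfold X; push_cast; rw [pow_succ]; field_simp; ring
  have hm : ∀ i j : ℕ, i ≤ j → X a b (n + 1) i ≤ X a b (n + 1) j := by
    intro i j hij
    unfold X
    have : (i : ℝ) ≤ j := by exact_mod_cast hij
    gcongr
  have hk1 := (mem_Sn.1 hk).1
  have hk2 := (mem_Sn.1 hk).2
  rcases le_total s (X a b (n + 1) (2 * k + 1)) with h | h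
  · refine ⟨2 * k, mem_Sn.2 ⟨by rw [pow_succ]; omega, ?_⟩, ?_⟩
    · refine subset_trans (Icc_subset_Icc (le_of_eq e0.symm) ?_) hk2
      rw [← e2]
      exact hm _ _ (by omega)
    · rw [e0]; exact ⟨hs.1, h⟩
  · refine ⟨2 * k + 1, mem_Sn.2 ⟨by rw [pow_succ]; omega, ?_⟩, ?_⟩
    · refine subset_trans (Icc_subset_Icc ?_ (le_of_eq e2)) hk2
      rw [← e0]
      exact hm _ _ (by omega)
    · rw [e2]; exact ⟨h, hs.2⟩

/-- **V1**, real energy bound -/
theorem var_image_real {g : ℝ → ℝ} (hg : Continuous g) {a b E : ℝ} (hab : a < b) (hE0 : 0 ≤ E)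
    (hE : ∀ n : ℕ, ∑ k ∈ Finset.range (2 ^ n), (g (X a b n (k + 1)) - g (X a b n k)) ^ 2 ≤
      (b - a) / 2 ^ n * E) {U : Set ℝ} (hU : IsOpen U) (hUab : U ⊆ Ioo a b) :
    volume ((fun p => p - g p) '' U) ≤
      volume U + (volume U * ENNReal.ofReal E) ^ (1 / 2 : ℝ) := by
  have h1 : (fun p => p - g p) '' U ⊆
      ⋃ n : ℕ, (fun p => p - g p) '' (⋃ k ∈ Sn a b U n, Icc (X a b n k) (X a b n (k + 1))) := by
    rw [← image_iUnion]
    exact image_mono (cover hab hU hUab)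
  refine (measure_mono h1).trans ?_
  rw [Monotone.measure_iUnion (fun n m h => image_mono (mono_level hab U h))]
  refine iSup_le fun n => ?_
  rw [image_iUnion₂]
  exact level hg hab hE0 hE U n

/-- **V1 (row D4 of the Bishop discs).** -/
theorem var_image {g : ℝ → ℝ} (hg : Continuous g) {a b : ℝ} (hab : a < b) {E : ℝ≥0∞}
    (hE : ∀ n : ℕ, ∑ k ∈ Finset.range (2 ^ n),
      ENNReal.ofReal ((g (a + ((k : ℝ) + 1) * (b - a) / 2 ^ n) - g (a + (k : ℝ) * (b - a) / 2 ^ n)) ^ 2)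
        ≤ ENNReal.ofReal ((b - a) / 2 ^ n) * E) {U : Set ℝ} (hU : IsOpen U) (hUab : U ⊆ Ioo a b) :
    volume ((fun p => p - g p) '' U) ≤ volume U + (volume U * E) ^ (1 / 2 : ℝ) := by
  have hba : 0 < b - a := by linarith
  rcases eq_or_ne E ⊤ with rfl | hEt
  · rcases eq_or_ne (volume U) 0 with h0 | h0
    · have : U = ∅ := hU.measure_eq_zero_iff volume |>.1 h0
      subst this
      simp
    · rw [ENNReal.mul_top h0, ENNReal.top_rpow_of_pos (by norm_num)]
      simp
  · obtain ⟨E', rfl⟩ : ∃ E' : NNReal, E = E' := ⟨E.toNNReal, (ENNReal.coe_toNNReal hEt).symm⟩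
    have h1 := var_image_real hg hab E'.coe_nonneg (fun n => ?_) hU hUab
    · rwa [ENNReal.ofReal_coe_nnreal] at h1
    · have h2 := hE n
      rw [← ENNReal.ofReal_coe_nnreal (p := E'), ← ENNReal.ofReal_mul (by positivity),
        ← ENNReal.ofReal_sum_of_nonneg (fun _ _ => sq_nonneg _),
        ENNReal.ofReal_le_ofReal_iff (by positivity)] at h2
      refine le_trans (le_of_eq (Finset.sum_congr rfl fun k _ => ?_)) h2
      unfold X
      push_cast
      rfl

/-! ## two variables -/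

theorem sum_range_two_mul (F : ℕ → ℝ) (M : ℕ) :
    ∑ i ∈ Finset.range (2 * M), F i = ∑ k ∈ Finset.range M, (F (2 * k) + F (2 * k + 1)) := by
  induction M with
  | zero => simp
  | succ M ih =>
    rw [show 2 * (M + 1) = 2 * M + 1 + 1 by ring, Finset.sum_range_succ, Finset.sum_range_succ, ih,
      Finset.sum_range_succ]
    ring

/-- dyadic points, real numerator -/
noncomputable def Y (a b : ℝ) (n : ℕ) (k : ℝ) : ℝ := a + k * (b - a) / 2 ^ n

/-- the dyadic energies of a slice -/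
noncomputable def en (g : ℝ → ℝ) (a b : ℝ) (n : ℕ) : ℝ≥0∞ :=
  ENNReal.ofReal (2 ^ n / (b - a)) *
    ∑ k ∈ Finset.range (2 ^ n), ENNReal.ofReal ((g (Y a b n ((k : ℝ) + 1)) - g (Y a b n k)) ^ 2)

theorem en_eq {g : ℝ → ℝ} {a b : ℝ} (hab : a < b) (n : ℕ) : en g a b n =
    ENNReal.ofReal (2 ^ n / (b - a) *
      ∑ k ∈ Finset.range (2 ^ n), (g (Y a b n ((k : ℝ) + 1)) - g (Y a b n k)) ^ 2) := by
  have hba : 0 < b - a := by linarith
  rw [en, ENNReal.ofReal_mul (by positivity), ENNReal.ofReal_sum_of_nonneg (fun _ _ => sq_nonneg _)]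

theorem en_mono (g : ℝ → ℝ) {a b : ℝ} (hab : a < b) : Monotone (en g a b) := by
  refine monotone_nat_of_le_succ fun n => ?_
  have hba : 0 < b - a := by linarith
  rw [en_eq hab, en_eq hab]
  refine ENNReal.ofReal_le_ofReal ?_
  rw [show Finset.range (2 ^ (n + 1)) = Finset.range (2 * 2 ^ n) by rw [pow_succ'], sum_range_two_mul]
  have h1 : ∀ k : ℕ, (g (Y a b n ((k : ℝ) + 1)) - g (Y a b n k)) ^ 2 ≤
      2 * ((g (Y a b (n + 1) (((2 * k : ℕ) : ℝ) + 1)) - g (Y a b (n + 1) ((2 * k : ℕ) : ℝ))) ^ 2 +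
        (g (Y a b (n + 1) (((2 * k + 1 : ℕ) : ℝ) + 1)) -
          g (Y a b (n + 1) ((2 * k + 1 : ℕ) : ℝ))) ^ 2) := by
    intro k
    have e0 : Y a b (n + 1) ((2 * k : ℕ) : ℝ) = Y a b n k := by
      unfold Y; push_cast; rw [pow_succ]; field_simp
    have e1 : Y a b (n + 1) (((2 * k + 1 : ℕ) : ℝ) + 1) = Y a b n ((k : ℝ) + 1) := by
      unfold Y; push_cast; rw [pow_succ]; field_simp; ring
    have e2 : ((2 * k : ℕ) : ℝ) + 1 = ((2 * k + 1 : ℕ) : ℝ) := by push_cast; ring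
    rw [e0, e1, e2]
    nlinarith [sq_nonneg ((g (Y a b (n + 1) ((2 * k + 1 : ℕ) : ℝ)) - g (Y a b n k)) -
      (g (Y a b n ((k : ℝ) + 1)) - g (Y a b (n + 1) ((2 * k + 1 : ℕ) : ℝ))))]
  calc 2 ^ n / (b - a) * ∑ k ∈ Finset.range (2 ^ n),
        (g (Y a b n ((k : ℝ) + 1)) - g (Y a b n k)) ^ 2
      ≤ 2 ^ n / (b - a) * ∑ k ∈ Finset.range (2 ^ n), 2 *
        ((g (Y a b (n + 1) (((2 * k : ℕ) : ℝ) + 1)) - g (Y a b (n + 1) ((2 * k : ℕ) : ℝ))) ^ 2 +
        (g (Y a b (n + 1) (((2 * k + 1 : ℕ) : ℝ) + 1)) -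
          g (Y a b (n + 1) ((2 * k + 1 : ℕ) : ℝ))) ^ 2) := by
        gcongr with k _
        exact h1 k
    _ = _ := by
        rw [← Finset.mul_sum, pow_succ]
        ring

theorem en_bound (g : ℝ → ℝ) {a b : ℝ} (hab : a < b) (n : ℕ) :
    ∑ k ∈ Finset.range (2 ^ n),
      ENNReal.ofReal ((g (a + ((k : ℝ) + 1) * (b - a) / 2 ^ n) - g (a + (k : ℝ) * (b - a) / 2 ^ n)) ^ 2)
        = ENNReal.ofReal ((b - a) / 2 ^ n) * en g a b n := by
  have hba : 0 < b - a := by linarith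
  rw [en, ← mul_assoc, ← ENNReal.ofReal_mul (by positivity)]
  have : (b - a) / 2 ^ n * (2 ^ n / (b - a)) = 1 := by field_simp
  rw [this, ENNReal.ofReal_one, one_mul]
  rfl

theorem sigma_closed {X : Type*} [TopologicalSpace X] [SigmaCompactSpace X] {F : Set X}
    (hF : IsClosed F) : IsSigmaCompact F :=
  isSigmaCompact_univ.of_isClosed_subset hF (subset_univ _)

/-- the image of the intersection of an open and a closed set is measurable -/
theorem meas_image {Φ : ℝ × ℝ → ℝ × ℝ} (hΦ : Continuous Φ) {O C : Set (ℝ × ℝ)} (hO : IsOpen O)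
    (hC : IsClosed C) : MeasurableSet (Φ '' (O ∩ C)) := by
  obtain ⟨F, hF, -, hFU, -⟩ := hO.exists_iUnion_isClosed
  have h1 : IsSigmaCompact (O ∩ C) := by
    rw [← hFU, iUnion_inter]
    exact isSigmaCompact_iUnion _ fun n => sigma_closed ((hF n).inter hC)
  obtain ⟨K, hK, hKU⟩ := h1.image hΦ
  rw [← hKU]
  exact MeasurableSet.iUnion fun n => (hK n).isClosed.measurableSet

/-- **V2 (row D4 of the Bishop discs).** -/
theorem var_image2 {G : ℝ → ℝ → ℝ} (hG : Continuous fun z : ℝ × ℝ => G z.1 z.2) {x0 x1 a b K : ℝ}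
    (hab : a < b) (hK : 0 ≤ K)
    (hL : ∀ p q : ℝ, ∫⁻ ξ in Icc x0 x1, ENNReal.ofReal ((G p ξ - G q ξ) ^ 2) ≤
      ENNReal.ofReal (K ^ 2 * (p - q) ^ 2)) {O : Set (ℝ × ℝ)} (hO : IsOpen O) :
    volume ((fun z : ℝ × ℝ => (z.1 - G z.1 z.2, z.2)) '' (O ∩ Ioo a b ×ˢ Icc x0 x1)) ≤
      volume (O ∩ Ioo a b ×ˢ Icc x0 x1) +
        ENNReal.ofReal K * (ENNReal.ofReal (b - a) * volume (O ∩ Ioo a b ×ˢ Icc x0 x1)) ^ (1 / 2 : ℝ) := by
  have hba : 0 < b - a := by linarith
  set N : Set (ℝ × ℝ) := O ∩ Ioo a b ×ˢ Icc x0 x1 with hN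
  set Φ : ℝ × ℝ → ℝ × ℝ := fun z => (z.1 - G z.1 z.2, z.2) with hΦ
  have hΦc : Continuous Φ := by fun_prop
  have hNdec : N = (O ∩ Ioo a b ×ˢ univ) ∩ (univ ×ˢ Icc x0 x1) := by
    ext z
    simp only [hN, mem_inter_iff, mem_prod, mem_univ, and_true, true_and]
    tauto
  have hNm : MeasurableSet N := hO.measurableSet.inter (measurableSet_Ioo.prod measurableSet_Icc)
  have hSm : MeasurableSet (Φ '' N) := by
    rw [hNdec]
    exact meas_image hΦc (hO.inter (isOpen_Ioo.prod isOpen_univ)) (isClosed_univ.prod isClosed_Icc)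
  set U : ℝ → Set ℝ := fun ξ => (fun p => (p, ξ)) ⁻¹' (O ∩ Ioo a b ×ˢ univ) with hU
  have hUo : ∀ ξ, IsOpen (U ξ) := fun ξ =>
    (hO.inter (isOpen_Ioo.prod isOpen_univ)).preimage (by fun_prop)
  have hUab : ∀ ξ, U ξ ⊆ Ioo a b := fun ξ p hp => hp.2.1
  have hslN : ∀ ξ ∈ Icc x0 x1, (fun p => (p, ξ)) ⁻¹' N = U ξ := by
    intro ξ hξ
    ext p
    simp only [hN, hU, mem_preimage, mem_inter_iff, mem_prod, mem_univ, and_true]
    tauto
  have hslN' : ∀ ξ, ξ ∉ Icc x0 x1 → (fun p => (p, ξ)) ⁻¹' N = ∅ := by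
    intro ξ hξ
    ext p
    simp only [hN, mem_preimage, mem_inter_iff, mem_prod, mem_empty_iff_false, iff_false]
    tauto
  have hslS : ∀ ξ ∈ Icc x0 x1, (fun p => (p, ξ)) ⁻¹' (Φ '' N) = (fun p => p - G p ξ) '' U ξ := by
    intro ξ hξ
    ext y
    constructor
    · rintro ⟨⟨p, ξ'⟩, hz, h⟩
      obtain ⟨h1, h2⟩ := Prod.ext_iff.1 h
      simp only [hΦ] at h1 h2
      subst h2
      refine ⟨p, ?_, h1⟩
      rw [← hslN ξ' hξ]
      exact hz
    · rintro ⟨p, hp, rfl⟩
      rw [← hslN ξ hξ] at hp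
      exact ⟨(p, ξ), hp, rfl⟩
  have hslS' : ∀ ξ, ξ ∉ Icc x0 x1 → (fun p => (p, ξ)) ⁻¹' (Φ '' N) = ∅ := by
    intro ξ hξ
    rw [eq_empty_iff_forall_notMem]
    rintro y ⟨⟨p, ξ'⟩, hz, h⟩
    obtain ⟨h1, h2⟩ := Prod.ext_iff.1 h
    simp only [hΦ] at h1 h2
    subst h2
    exact hξ hz.2.2
  have hvN : volume N = ∫⁻ ξ in Icc x0 x1, volume (U ξ) := by
    rw [Measure.volume_eq_prod, Measure.prod_apply_symm hNm, ← lintegral_indicator measurableSet_Icc]
    refine lintegral_congr fun ξ => ?_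
    by_cases hξ : ξ ∈ Icc x0 x1
    · rw [indicator_of_mem hξ, hslN ξ hξ]
    · rw [indicator_of_notMem hξ, hslN' ξ hξ, measure_empty]
  have hvS : volume (Φ '' N) = ∫⁻ ξ in Icc x0 x1, volume ((fun p => p - G p ξ) '' U ξ) := by
    rw [Measure.volume_eq_prod, Measure.prod_apply_symm hSm, ← lintegral_indicator measurableSet_Icc]
    refine lintegral_congr fun ξ => ?_
    by_cases hξ : ξ ∈ Icc x0 x1
    · rw [indicator_of_mem hξ, hslS ξ hξ]
    · rw [indicator_of_notMem hξ, hslS' ξ hξ, measure_empty]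
  have hUmeas : Measurable fun ξ => volume (U ξ) := by
    have h1 : MeasurableSet (O ∩ Ioo a b ×ˢ (univ : Set ℝ)) :=
      hO.measurableSet.inter (measurableSet_Ioo.prod MeasurableSet.univ)
    exact measurable_measure_prodMk_right h1
  set E : ℝ → ℝ≥0∞ := fun ξ => ⨆ n, en (fun p => G p ξ) a b n with hE
  have hem : ∀ n, Measurable fun ξ => en (fun p => G p ξ) a b n := by
    intro n
    unfold en
    refine Measurable.const_mul (Finset.measurable_sum _ fun k _ => ?_) _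
    refine Measurable.ennreal_ofReal (Continuous.measurable ?_)
    have h1 : Continuous fun ξ => G (Y a b n ((k : ℝ) + 1)) ξ :=
      hG.comp (continuous_const.prodMk continuous_id)
    have h2 : Continuous fun ξ => G (Y a b n k) ξ :=
      hG.comp (continuous_const.prodMk continuous_id)
    exact (h1.sub h2).pow 2
  have hEm : Measurable E := Measurable.iSup hem
  have hEint : ∫⁻ ξ in Icc x0 x1, E ξ ≤ ENNReal.ofReal (K ^ 2 * (b - a)) := by
    rw [hE, lintegral_iSup hem (fun n m h ξ => en_mono _ hab h)]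
    refine iSup_le fun n => ?_
    unfold en
    rw [lintegral_const_mul' _ _ ENNReal.ofReal_ne_top, lintegral_finsetSum' _ fun k _ => ?_]
    · calc ENNReal.ofReal (2 ^ n / (b - a)) * ∑ k ∈ Finset.range (2 ^ n),
            ∫⁻ ξ in Icc x0 x1, ENNReal.ofReal ((G (Y a b n ((k : ℝ) + 1)) ξ - G (Y a b n k) ξ) ^ 2)
          ≤ ENNReal.ofReal (2 ^ n / (b - a)) * ∑ k ∈ Finset.range (2 ^ n),
            ENNReal.ofReal (K ^ 2 * ((b - a) / 2 ^ n) ^ 2) := by
            gcongr with k _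
            refine (hL _ _).trans (le_of_eq ?_)
            congr 3
            unfold Y
            ring
        _ = ENNReal.ofReal (K ^ 2 * (b - a)) := by
            rw [Finset.sum_const, Finset.card_range, nsmul_eq_mul, ← ENNReal.ofReal_natCast,
              ← ENNReal.ofReal_mul (by positivity), ← ENNReal.ofReal_mul (by positivity)]
            congr 1
            push_cast
            field_simp
    · refine (Measurable.ennreal_ofReal (Continuous.measurable ?_)).aemeasurable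
      have h1 : Continuous fun ξ => G (Y a b n ((k : ℝ) + 1)) ξ :=
        hG.comp (continuous_const.prodMk continuous_id)
      have h2 : Continuous fun ξ => G (Y a b n k) ξ :=
        hG.comp (continuous_const.prodMk continuous_id)
      exact (h1.sub h2).pow 2
  have hpoint : ∀ ξ, volume ((fun p => p - G p ξ) '' U ξ) ≤
      volume (U ξ) + (volume (U ξ)) ^ (1 / 2 : ℝ) * (E ξ) ^ (1 / 2 : ℝ) := by
    intro ξ
    have hg : Continuous fun p => G p ξ := hG.comp (continuous_id.prodMk continuous_const)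
    have h1 := var_image hg hab (E := E ξ) (fun n => ?_) (hUo ξ) (hUab ξ)
    · rwa [ENNReal.mul_rpow_of_nonneg _ _ (by norm_num)] at h1
    · rw [en_bound (fun p => G p ξ) hab n]
      gcongr
      exact le_iSup (fun n => en (fun p => G p ξ) a b n) n
  rw [hvS]
  calc ∫⁻ ξ in Icc x0 x1, volume ((fun p => p - G p ξ) '' U ξ)
      ≤ ∫⁻ ξ in Icc x0 x1, (volume (U ξ) + (volume (U ξ)) ^ (1 / 2 : ℝ) * (E ξ) ^ (1 / 2 : ℝ)) :=
        lintegral_mono fun ξ => hpoint ξ
    _ = (∫⁻ ξ in Icc x0 x1, volume (U ξ)) +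
          ∫⁻ ξ in Icc x0 x1, (volume (U ξ)) ^ (1 / 2 : ℝ) * (E ξ) ^ (1 / 2 : ℝ) :=
        lintegral_add_left hUmeas _
    _ ≤ volume N + ENNReal.ofReal K * (ENNReal.ofReal (b - a) * volume N) ^ (1 / 2 : ℝ) := by
        rw [← hvN]
        gcongr
        have h2 := ENNReal.lintegral_mul_le_Lp_mul_Lq (volume.restrict (Icc x0 x1))
          (p := 2) (q := 2) Real.HolderConjugate.two_two
          (f := fun ξ => (volume (U ξ)) ^ (1 / 2 : ℝ)) (g := fun ξ => (E ξ) ^ (1 / 2 : ℝ))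
          (hUmeas.pow_const _).aemeasurable (hEm.pow_const _).aemeasurable
        have h3 : ∀ y : ℝ≥0∞, (y ^ (1 / 2 : ℝ)) ^ (2 : ℝ) = y := by
          intro y
          rw [← ENNReal.rpow_mul]
          norm_num
        simp only [h3, Pi.mul_apply] at h2
        refine h2.trans ?_
        rw [← hvN]
        calc volume N ^ (1 / 2 : ℝ) * (∫⁻ ξ in Icc x0 x1, E ξ) ^ (1 / 2 : ℝ)
            ≤ volume N ^ (1 / 2 : ℝ) * (ENNReal.ofReal (K ^ 2 * (b - a))) ^ (1 / 2 : ℝ) := by
              gcongr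
          _ = ENNReal.ofReal K * (ENNReal.ofReal (b - a) * volume N) ^ (1 / 2 : ℝ) := by
              rw [ENNReal.ofReal_mul (by positivity), ENNReal.mul_rpow_of_nonneg _ _ (by norm_num),
                ENNReal.mul_rpow_of_nonneg _ _ (by norm_num),
                ENNReal.ofReal_rpow_of_nonneg (p := 1 / 2) (by positivity) (by norm_num),
                ← Real.sqrt_eq_rpow, Real.sqrt_sq hK]
              ring

end Vale.Agent.P097.H109.Var
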